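import Crest.Agent.R46.Defs

/-!
# Row 46: functional form of tiling equations  (subtask Bridge)

`bridge`: let `N = Nat.card H`; `η` has additive order `N` (`hη`: `zmultiples η = ⊤`).  Choose
`t : H → ℤ` with `t h • η = h`, `ι h = (t h * C) • e₃`; for an equivariant `α`:
`α (g + (k * C) • e₃) = α g + k • η` for all `k : ℤ`.  The system: `F₀ = {(k * C) • e₃ | 0 ≤ k < N}` and,
for each tile `τ` of the finite set, `F τ = image (f τ) univ`, `f τ u = - τ.s u - ι (- τ.e u)` or rather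
any `f τ u` with `α (g - f τ u) = α (g + τ.s u) + τ.e u`, i.e. `f τ u = - τ.s u - ι (τ.e u)`.
If `α` is equivariant and `τ.Ok α` then `f τ` is injective and `A = {g | α g = 0}` tiles with `F τ` and `F₀`.
Conversely let `A` tile with `F₀`.  Then `a ∈ A → a + (N * C) • e₃ ∈ A` (write this point as
`a' + (k C) e₃`; if `k ≥ 1` then `a' = a + ((N - k) C) e₃` has two representations; use `C ≠ 0`).
Define `α g = k • η` for the unique `g = a + (k C) e₃`; it is equivariant, `α g = 0 ↔ g ∈ A`, and it is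
invariant under every `w` with `A + w ⊆ A`.  If `A` tiles with `F τ` (and `f τ` is injective, known from
the solution `hex`) then for all `g` there is exactly one `u` with `α (g + τ.s u) + τ.e u = 0`; applied
to `g + ι (-h)` this gives exactly one `u` with value `h`, so `τ.Ok α`.
-/

set_option autoImplicit false

namespace Crest.Agent.R46

open Crest.CombinatoricsR.Tiling

variable {H : Type} [AddCommGroup H]

theorem Expr.ok (τ : Tile H) : Expr fun α => τ.Ok α := by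
  exact ⟨{τ}, Set.finite_singleton τ, fun α => by simp⟩

theorem Expr.and {Q Q' : (Z3 → H) → Prop} (h : Expr Q) (h' : Expr Q') :
    Expr fun α => Q α ∧ Q' α := by
  obtain ⟨S, hS, h⟩ := h
  obtain ⟨S', hS', h'⟩ := h'
  refine ⟨S ∪ S', hS.union hS', fun α => ?_⟩
  simp only [Set.mem_union, or_imp, forall_and, h, h']

theorem Expr.all {ι : Type} [Finite ι] {Q : ι → (Z3 → H) → Prop} (h : ∀ i, Expr (Q i)) :
    Expr fun α => ∀ i, Q i α := by
  choose S hS h using h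
  refine ⟨⋃ i, S i, Set.finite_iUnion hS, fun α => ?_⟩
  simp only [Set.mem_iUnion, forall_exists_index, ← h]
  exact ⟨fun k i τ hτ => k τ i hτ, fun k τ i hτ => k i τ hτ⟩

theorem Expr.imp (p : Prop) {Q : (Z3 → H) → Prop} (h : Expr Q) : Expr fun α => p → Q α := by
  by_cases hp : p
  · simpa [hp] using h
  · exact ⟨∅, Set.finite_empty, fun α => by simp [hp]⟩

theorem Expr.congr {Q Q' : (Z3 → H) → Prop} (h : Expr Q) (e : ∀ α, Q α ↔ Q' α) : Expr Q' := by
  obtain ⟨S, hS, h⟩ := h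
  exact ⟨S, hS, fun α => (h α).trans (e α)⟩

theorem expr_cond (P : Par) : Expr (Cond P) := by
  refine Expr.congr (((((((( Expr.all fun ν => Expr.all fun w => Expr.ok _).and
    (Expr.all fun ν => Expr.all fun w => Expr.ok _)).and
    (Expr.all fun ν => Expr.all fun w => Expr.imp _ (Expr.ok _))).and
    (Expr.all fun ν => Expr.ok _)).and
    (Expr.all fun ν => Expr.all fun w => Expr.imp _ (Expr.ok _))).and
    (Expr.all fun ν => Expr.all fun w => Expr.imp _ (Expr.ok _))).and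
    (Expr.all fun ω => Expr.imp _ (Expr.ok _))).and
    (Expr.all fun s => Expr.all fun d => Expr.all fun ω => Expr.imp _ (Expr.imp _ (Expr.ok _))))
    fun α => ⟨fun ⟨⟨⟨⟨⟨⟨⟨h1, h2⟩, h3⟩, h4⟩, h5⟩, h6⟩, h7⟩, h8⟩ => ⟨h1, h2, h3, h4, h5, h6, h7, h8⟩,
      fun h => ⟨⟨⟨⟨⟨⟨⟨h.1, h.2⟩, h.3⟩, h.4⟩, h.5⟩, h.6⟩, h.7⟩, h.8⟩⟩

theorem bridge_equi {C : ℤ} {η : H} {α : Z3 → H} (h : Equi C η α) (g : Z3) (k : ℤ) :
    α (g + (k * C) • ev 2) = α g + k • η := by
  induction k using Int.induction_on with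
  | zero => simp
  | succ k ih => rw [add_one_mul, add_smul, ← add_assoc, h, ih, add_one_zsmul, add_assoc]
  | pred k ih =>
    have := h (g + ((-(k : ℤ) - 1) * C) • ev 2)
    rw [add_assoc, ← add_smul, ← add_one_mul, sub_add_cancel, ih] at this
    rw [sub_smul, one_smul, ← add_sub_assoc, this, add_sub_cancel_right]

theorem bridge_tiling {ι : Type} (s : Finset ι) {f : ι → Z3} (hf : Function.Injective f)
    (A : Set Z3) : IsTilingBy (s.image f) A ↔ ∀ x, ∃! u, u ∈ s ∧ x - f u ∈ A := by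
  refine forall_congr' fun x => ⟨?_, ?_⟩
  · rintro ⟨⟨a, b⟩, ⟨h1, h2, h3⟩, h4⟩
    obtain ⟨u, hu, rfl⟩ := Finset.mem_image.1 h2
    refine ⟨u, ⟨hu, by rw [← h3]; simpa using h1⟩, fun u' hu' => hf ?_⟩
    exact congrArg Prod.snd (h4 (x - f u', f u')
      ⟨hu'.2, Finset.mem_image_of_mem f hu'.1, sub_add_cancel _ _⟩)
  · rintro ⟨u, ⟨h1, h2⟩, h3⟩
    refine ⟨(x - f u, f u), ⟨h2, Finset.mem_image_of_mem f h1, sub_add_cancel _ _⟩, ?_⟩
    rintro ⟨a, b⟩ ⟨k1, k2, k3⟩
    obtain ⟨u', hu', rfl⟩ := Finset.mem_image.1 k2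
    have k4 : a = x - f u' := eq_sub_of_add_eq k3
    subst k4
    rw [h3 u' ⟨hu', k1⟩]

theorem bridge [Finite H] {C : ℤ} (hC : C ≠ 0) {η : H} (hη : ∀ h, ∃ t : ℤ, t • η = h)
    {Q : (Z3 → H) → Prop} (hQ : Expr Q) (hex : ∃ α, Equi C η α ∧ Q α)
    (hno : ∀ α, Equi C η α → Q α → ∀ L : ℕ, 1 ≤ L → ¬ ∀ g, α (g + (L : ℤ) • ev 0) = α g) :
    ∃ l, Good l := by
  classical
  have := Fintype.ofFinite H
  obtain ⟨S, hS, hQ⟩ := hQ
  obtain ⟨α₀, he₀, hQ₀⟩ := hex
  choose t ht using hη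
  obtain ⟨N, hN0, hN⟩ : ∃ N : ℤ, 0 < N ∧ ∀ k : ℤ, k • η = 0 ↔ N ∣ k :=
    ⟨addOrderOf η, by exact_mod_cast addOrderOf_pos η,
      fun k => addOrderOf_dvd_iff_zsmul_eq_zero.symm⟩
  set z : ℤ → Z3 := fun k => (k * C) • ev 2 with hz
  have hz0 : z 0 = 0 := by simp [hz]
  have hza : ∀ k k', z (k + k') = z k + z k' := fun k k' => by simp only [hz, add_mul, add_smul]
  have hzi : Function.Injective z := fun k k' h => by
    have := congrFun h 2
    simp only [hz, ev, Pi.smul_apply, Pi.single_eq_same, smul_eq_mul, mul_one] at this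
    exact mul_right_cancel₀ hC this
  set f : Tile H → H → Z3 := fun τ u => -τ.s u - z (t (τ.e u)) with hf
  have hfα : ∀ α, Equi C η α → ∀ τ x u, α (x - f τ u) = α (x + τ.s u) + τ.e u := by
    intro α hα τ x u
    rw [show x - f τ u = x + τ.s u + z (t (τ.e u)) by simp only [hf]; abel, bridge_equi hα, ht]
  have hfi : ∀ τ ∈ S, Function.Injective (f τ) := fun τ hτ u u' h =>
    ((hQ α₀).2 hQ₀ τ hτ 0).1 (by simp only [← hfα α₀ he₀, h])
  have key : ∀ α, Equi C η α → ∀ A : Set Z3, (∀ g, g ∈ A ↔ α g = 0) → ∀ τ ∈ S,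
      (IsTilingBy (Finset.univ.image (f τ)) A ↔ τ.Ok α) := by
    intro α hα A hA τ hτ
    rw [bridge_tiling _ (hfi τ hτ)]
    simp only [Finset.mem_univ, true_and, hA, hfα α hα, Tile.Ok, Function.bijective_iff_existsUnique]
    refine ⟨fun h g y => ?_, fun h g => h g 0⟩
    refine (existsUnique_congr fun u => ?_).1 (h (g + z (t (-y))))
    rw [add_right_comm, bridge_equi hα, ht, add_right_comm, add_neg_eq_zero]
  have hmem : ∀ A : Set Z3, (∀ F ∈ (Finset.Ico 0 N).image z ::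
      hS.toFinset.toList.map fun τ => Finset.univ.image (f τ), IsTilingBy F A) ↔
      (∀ x, ∃! k, k ∈ Finset.Ico 0 N ∧ x - z k ∈ A) ∧
        ∀ τ ∈ S, IsTilingBy (Finset.univ.image (f τ)) A := by
    intro A
    rw [List.forall_mem_cons, bridge_tiling _ hzi, List.forall_mem_map]
    simp only [Finset.mem_toList, Set.Finite.mem_toFinset]
  refine ⟨(Finset.Ico 0 N).image z :: hS.toFinset.toList.map fun τ => Finset.univ.image (f τ),
    ⟨{g | α₀ g = 0}, (hmem _).2 ⟨fun x => ?_, fun τ hτ =>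
      (key α₀ he₀ _ (fun _ => Iff.rfl) τ hτ).2 ((hQ α₀).2 hQ₀ τ hτ)⟩⟩, fun A hA => ?_⟩
  · have h1 : ∀ k, x - z k ∈ {g | α₀ g = 0} ↔ N ∣ t (α₀ x) - k := fun k => by
      have h2 := bridge_equi he₀ (x - z k) k
      rw [show x - z k + (k * C) • ev 2 = x from sub_add_cancel _ _] at h2
      rw [← hN, sub_smul, ht, h2, add_sub_cancel_right]
      rfl
    simp only [h1, Finset.mem_Ico]
    refine ⟨t (α₀ x) % N, ⟨⟨Int.emod_nonneg _ hN0.ne', Int.emod_lt_of_pos _ hN0⟩,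
      Int.dvd_self_sub_emod⟩, fun k hk => ?_⟩
    rw [← Int.emod_eq_of_lt hk.1.1 hk.1.2]
    exact (Int.emod_emod_of_dvd _ dvd_rfl).symm.trans
      ((Int.emod_emod_of_dvd _ dvd_rfl).trans (Int.modEq_iff_dvd.2 hk.2))
  · obtain ⟨h1, h2⟩ := (hmem A).1 hA
    simp only [Finset.mem_Ico] at h1
    choose κ hκ hu using h1
    have hu' : ∀ x k, 0 ≤ k → k < N → x - z k ∈ A → κ x = k := fun x k a b c =>
      (hu x k ⟨⟨a, b⟩, c⟩).symm
    have hA0 : ∀ x ∈ A, κ x = 0 := fun x hx => hu' x 0 le_rfl hN0 (by rwa [hz0, sub_zero])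
    have hAN : ∀ a ∈ A, a + z N ∈ A := by
      intro a ha
      obtain ⟨⟨k1, k2⟩, k3⟩ := hκ (a + z N)
      rcases k1.eq_or_lt with k4 | k4
      · rwa [← k4, hz0, sub_zero] at k3
      · have k5 := hA0 _ k3
        have k6 := hu' (a + z N - z (κ (a + z N))) (N - κ (a + z N)) (by omega) (by omega) (by
          rw [sub_sub, ← hza, add_sub_cancel, add_sub_cancel_right]; exact ha)
        omega
    have hα : Equi C η fun x => κ x • η := by
      intro x
      obtain ⟨⟨k1, k2⟩, k3⟩ := hκ x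
      have e : C • ev 2 = z 1 := by simp [hz]
      beta_reduce
      rw [e, ← add_one_zsmul]
      rcases (Int.add_one_le_of_lt k2).eq_or_lt with k4 | k4
      · have k5 := hAN _ k3
        rw [← k4, hza, ← add_assoc, sub_add_cancel] at k5
        rw [hA0 _ k5, k4, zero_smul, (hN N).2 dvd_rfl]
      · rw [hu' (x + z 1) (κ x + 1) (by omega) k4 (by rwa [hza, add_sub_add_right_eq_sub])]
    have hAα : ∀ g, g ∈ A ↔ κ g • η = 0 := fun g => by
      refine ⟨fun h => by rw [hA0 g h, zero_smul], fun h => ?_⟩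
      obtain ⟨⟨k1, k2⟩, k3⟩ := hκ g
      rwa [Int.eq_zero_of_dvd_of_nonneg_of_lt k1 k2 ((hN _).1 h), hz0, sub_zero] at k3
    rintro ⟨L, hL, hP⟩
    refine hno _ hα ((hQ _).1 fun τ hτ => (key _ hα A hAα τ hτ).1 (h2 τ hτ)) L hL fun g => ?_
    obtain ⟨⟨k1, k2⟩, k3⟩ := hκ g
    rw [hu' _ (κ g) k1 k2 (by rw [add_sub_right_comm]; exact hP 0 _ k3)]

end Crest.Agent.R46
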