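import Crest.Agent.R46.Struct

/-!
# Row 46: the Sudoku has a solution and no periodic solution  (subtask Sudoku)

`line_eq`: on `line F i j` the function `Φ` restricts to `(A + B j) n + (B i + C)`; `aff_eq` at `n = 0..3`.
`descent`: strong induction on `L`.  If `13 ∤ L`: in column `0` choose `m` with `Φ = 1` and `t : ℕ` with
`B L t = 1`; then `1 = F 0 m = F 0 (m + t L) = 2`.  If `L = 13 L'`: integers `A', C'` with
`A + B A' = 0`, `C + B C' = 0` in `ZMod 13`; `F' n m = F n (13 m + A' n + C')` has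
`line F' i j = line F (13 i + C') (13 j + A')` and period `L'`.  Let `(A'', B'', C'')` come from `struct`
for `F'`.  If `B'' = 0` take `n₀ < 13` with `A'' n₀ + C'' ≠ 0` and the line `i = C' - n₀`, `j = A' + 1` of `F`:
there `Φ = B (n - n₀)`; by `line_eq` the data of `Rule` are `(B, -B n₀)`, so two cells `n ≡ n' ≡ n₀` carry
different digits, but both are cells of `F'` (`n - n₀ = 13 m'`) with digit `A'' n₀ + C''`.
`sudoku`: if `B = 0` every line has data `(A, C)` (`line_eq`), so `XS false A` and `XS true A`.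
`exists_f`: `f m` = last nonzero digit of `m` in base 13, `f 0 = 1`: `f (13 m) = f m`, `f m = m` if `13 ∤ m`.
`Rule`: strong induction on `|i| + |j|`; `i = j = 0`: `(a, b) = (0, 1)`; if `13 ∣ i, j` divide; else
`(a, b) = (j, i)`; if `a ≠ 0` let `n₀ < 13` with `j n₀ + i = 13 s`; the cells `n₀ + 13 t`, `t = 0, 1, 2`, carry
`f (s + j t)`, and two of the three distinct residues `s + j t` are nonzero.
-/

set_option autoImplicit false

namespace Crest.Agent.R46

open Crest.CombinatoricsR.Tiling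

local instance sudoku_fact : Fact (Nat.Prime 13) := ⟨by norm_num⟩

theorem sudoku_aff {F : Fin 39 → ℤ → Dg} {A B C : Dg} (h : ∀ m, RowOK F A B C m) (i j : ℤ) :
    Aff (A + B * j) (B * i + C) (line F i j) := by
  intro n hn
  have e : A * ((n : ℕ) : Dg) + (B * ((j * ((n : ℕ) : ℤ) + i : ℤ) : Dg) + C) =
      (A + B * j) * ((n : ℕ) : Dg) + (B * i + C) := by
    push_cast
    ring
  exact (h (j * ((n : ℕ) : ℤ) + i) n (by rwa [e])).trans e

theorem sudoku_rule1 {ω : Fin 39 → Dg} (h : Rule ω) : Rule1 ω :=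
  let ⟨a, b, h1, h2, _⟩ := h
  ⟨a, b, h1, h2⟩

theorem line_eq {F : Fin 39 → ℤ → Dg} {A B C : Dg} (h : ∀ m, RowOK F A B C m) {i j : ℤ} {a b : Dg}
    (hab : ¬ (a = 0 ∧ b = 0)) (ha : Aff a b (line F i j))
    (hne : ¬ (A + B * j = 0 ∧ B * i + C = 0)) : a = A + B * j ∧ b = B * i + C := by
  refine aff_eq (x := 0) hab hne fun t ht h1 h2 => ?_
  obtain ⟨n, hn⟩ : ∃ n : Fin 39, ((n : ℕ) : Dg) = 0 + t := by
    rcases ht with rfl | rfl | rfl | rfl
    exacts [⟨0, by decide⟩, ⟨1, by decide⟩, ⟨2, by decide⟩, ⟨3, by decide⟩]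
  rw [← hn] at h1 h2 ⊢
  exact (ha n h1).symm.trans (sudoku_aff h i j n h2)

theorem descent (L : ℕ) (hL : 1 ≤ L) {F : Fin 39 → ℤ → Dg} (hR : ∀ i j, Rule (line F i j))
    (hper : ∀ n m, F n (m + L) = F n m) {A B C : Dg} (h : ∀ m, RowOK F A B C m) : B = 0 := by
  induction L using Nat.strong_induction_on generalizing F A B C with
  | _ L ih =>
  by_contra hB
  by_cases hd : 13 ∣ L
  · obtain ⟨L', rfl⟩ := hd
    obtain ⟨A', hA'⟩ := ZMod.intCast_surjective (n := 13) (-A / B)
    obtain ⟨C', hC'⟩ := ZMod.intCast_surjective (n := 13) (-C / B)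
    have hA : B * (A' : Dg) = -A := by rw [hA']; field_simp
    have hC : B * (C' : Dg) = -C := by rw [hC']; field_simp
    obtain ⟨F', hF'⟩ : ∃ F' : Fin 39 → ℤ → Dg, ∀ n m, F' n m = F n (13 * m + A' * (n : ℕ) + C') :=
      ⟨_, fun _ _ => rfl⟩
    have hR' : ∀ i j, Rule (line F' i j) := fun i j => by
      have : line F' i j = line F (13 * i + C') (13 * j + A') := by
        funext n
        simp only [line, hF']
        congr 1
        ring
      rw [this]
      exact hR _ _
    obtain ⟨A'', B'', C'', h0, h''⟩ := struct fun i j => sudoku_rule1 (hR' i j)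
    have hB'' : B'' = 0 := ih L' (by omega) (by omega) hR' (fun n m => by
      rw [hF', hF', ← hper n (13 * m + A' * (n : ℕ) + C')]
      congr 1
      push_cast
      ring) h''
    obtain ⟨n₀, hn₀⟩ : ∃ n₀ : ℤ, A'' * (n₀ : Dg) + C'' ≠ 0 := by
      by_cases hC'' : C'' = 0
      · exact ⟨1, fun e => h0 ⟨by simpa [hC''] using e, hB'', hC''⟩⟩
      · exact ⟨0, by simpa using hC''⟩
    obtain ⟨a, b, hab, ha, hc⟩ := hR (C' - n₀) (A' + 1)
    have e1 : A + B * ((A' + 1 : ℤ) : Dg) = B := by push_cast; linear_combination hA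
    have e2 : B * ((C' - n₀ : ℤ) : Dg) + C = -(B * n₀) := by push_cast; linear_combination hC
    obtain ⟨rfl, rfl⟩ := line_eq h hab ha (by rw [e1]; exact fun e => hB e.1)
    rw [e1, e2] at hc
    obtain ⟨n, n', hn, hn', hne⟩ := hc hB
    have key : ∀ n : Fin 39, B * ((n : ℕ) : Dg) + -(B * n₀) = 0 →
        line F (C' - n₀) (A' + 1) n = A'' * n₀ + C'' := by
      intro n hn
      have e3 : ((n : ℕ) : Dg) = n₀ := mul_left_cancel₀ hB (by linear_combination hn)
      obtain ⟨m, hm⟩ := (ZMod.intCast_zmod_eq_zero_iff_dvd ((n : ℕ) - n₀) 13).1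
        (by push_cast; rw [e3, sub_self])
      have e4 : line F (C' - n₀) (A' + 1) n = F' n m := by
        simp only [line, hF']
        congr 1
        push_cast at hm
        linear_combination hm
      have e5 : A'' * ((n : ℕ) : Dg) + (B'' * (m : Dg) + C'') = A'' * n₀ + C'' := by
        rw [hB'', e3]; ring
      exact e4.trans ((h'' m n (by rwa [e5])).trans e5)
    exact hne ((key n hn).trans (key n' hn').symm)
  · have hL' : (L : Dg) ≠ 0 := fun e => hd ((ZMod.natCast_eq_zero_iff L 13).1 e)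
    obtain ⟨m, hm⟩ := ZMod.intCast_surjective (n := 13) ((1 - C) / B)
    obtain ⟨t, ht⟩ := ZMod.intCast_surjective (n := 13) (1 / (B * L))
    have e1 : A * (((0 : Fin 39) : ℕ) : Dg) + (B * (m : Dg) + C) = 1 := by
      rw [hm]; simp; field_simp; ring
    have e2 : A * (((0 : Fin 39) : ℕ) : Dg) + (B * ((m + t * L : ℤ) : Dg) + C) = 2 := by
      push_cast; rw [hm, ht]; simp; field_simp; ring
    have h1 := (h m 0 (by rw [e1]; decide)).trans e1
    have h2 := (h (m + t * L) 0 (by rw [e2]; decide)).trans e2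
    have h3 : F 0 (m + t * L) = F 0 m := (show Function.Periodic (F 0) (L : ℤ) from hper 0).int_mul t m
    exact absurd (h1.symm.trans (h3.symm.trans h2)) (by decide)

theorem sudoku {F : Fin 39 → ℤ → Dg} (hR : ∀ i j, Rule (line F i j))
    (hS : ∀ s, ∃ i j, RuleS s (line F i j)) {L : ℕ} (hL : 1 ≤ L)
    (hper : ∀ n m, F n (m + L) = F n m) : False := by
  obtain ⟨A, B, C, h0, h⟩ := struct fun i j => sudoku_rule1 (hR i j)
  have hB := descent L hL hR hper h
  have key : ∀ s, XS s A := fun s => by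
    obtain ⟨i, j, a, b, hX, ha⟩ := hS s
    have h1 : ∀ s a, XS s a → a ≠ 0 := by decide
    have := (line_eq h (fun e => h1 s a hX e.1) ha (fun e => h0 (by simpa [hB] using e))).1
    simpa [this, hB] using hX
  have h2 : ∀ a, XS false a → ¬ XS true a := by decide
  exact h2 A (key _) (key _)

theorem sudoku_f : ∃ f : ℤ → Dg, f 0 = 1 ∧ (∀ m, f (13 * m) = f m) ∧
    ∀ m : ℤ, (m : Dg) ≠ 0 → f m = m := by
  refine ⟨fun m => if m = 0 then 1 else ((m / 13 ^ padicValInt 13 m : ℤ) : Dg), if_pos rfl,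
    fun m => ?_, fun m hm => ?_⟩
  · by_cases h : m = 0
    · simp [h]
    · have e : padicValInt 13 (13 * m) = 1 + padicValInt 13 m := by
        rw [padicValInt.mul (by norm_num) h]
        congr 1
        exact padicValInt.self (p := 13) (by norm_num)
      simp only [if_neg h, if_neg (mul_ne_zero (by norm_num : (13 : ℤ) ≠ 0) h), e]
      rw [pow_add, pow_one, Int.mul_ediv_mul_of_pos _ _ (by norm_num)]
  · have h : m ≠ 0 := fun e => hm (by simp [e])
    have e : padicValInt 13 m = 0 := padicValInt.eq_zero_of_not_dvd fun e =>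
      hm ((ZMod.intCast_zmod_eq_zero_iff_dvd m 13).2 e)
    simp [h, e]

theorem exists_f : ∃ f : ℤ → Dg, (∀ i j, Rule (line (fun _ => f) i j)) ∧
    ∀ s (i j : ℤ), XS s (j : Dg) → RuleS s (line (fun _ => f) i j) := by
  obtain ⟨f, f0, f1, f2⟩ := sudoku_f
  have haff : ∀ i j : ℤ, Aff j i (line (fun _ => f) i j) := fun i j n hn => by
    have e : ((j * ((n : ℕ) : ℤ) + i : ℤ) : Dg) = j * ((n : ℕ) : Dg) + i := by push_cast; rfl
    exact (f2 _ (by rwa [e])).trans e
  refine ⟨f, fun i j => ?_, fun s i j hX => ⟨j, i, hX, haff i j⟩⟩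
  induction hN : i.natAbs + j.natAbs using Nat.strong_induction_on generalizing i j with
  | _ N ih =>
  by_cases hij : (j : Dg) = 0 ∧ (i : Dg) = 0
  · obtain ⟨j', rfl⟩ := (ZMod.intCast_zmod_eq_zero_iff_dvd j 13).1 hij.1
    obtain ⟨i', rfl⟩ := (ZMod.intCast_zmod_eq_zero_iff_dvd i 13).1 hij.2
    by_cases h0 : i' = 0 ∧ j' = 0
    · obtain ⟨rfl, rfl⟩ := h0
      exact ⟨0, 1, by simp, fun n _ => by simp [line, f0], fun e => absurd rfl e⟩
    · have : line (fun _ => f) ((13 : ℕ) * i') ((13 : ℕ) * j') = line (fun _ => f) i' j' := by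
        funext n
        simp only [line]
        rw [← f1 (j' * _ + i')]
        congr 1
        push_cast
        ring
      rw [this]
      exact ih _ (by omega) i' j' rfl
  · refine ⟨j, i, hij, haff i j, fun hj => ?_⟩
    obtain ⟨n₀, hlt, hn₀⟩ : ∃ n₀ : ℕ, n₀ < 13 ∧ (j : Dg) * n₀ + i = 0 :=
      ⟨(-(i : Dg) / j).val, ZMod.val_lt _, by rw [ZMod.natCast_zmod_val]; field_simp; ring⟩
    obtain ⟨s, hs⟩ := (ZMod.intCast_zmod_eq_zero_iff_dvd (j * n₀ + i) 13).1 (by push_cast; exact hn₀)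
    have cell : ∀ t : ℕ, t < 3 → (s : Dg) + j * t ≠ 0 → ∃ n : Fin 39,
        (j : Dg) * ((n : ℕ) : Dg) + i = 0 ∧ line (fun _ => f) i j n = s + j * t := by
      intro t ht hne
      refine ⟨⟨n₀ + 13 * t, by omega⟩, ?_, ?_⟩
      · have e : ((13 : ℕ) : Dg) = 0 := by decide
        rw [Nat.cast_add, Nat.cast_mul, e, zero_mul, add_zero, hn₀]
      · have e : ((s + j * t : ℤ) : Dg) = s + j * t := by push_cast; rfl
        rw [← e, ← f2 _ (by rwa [e]), ← f1]
        simp only [line]
        congr 1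
        push_cast at hs ⊢
        linear_combination hs
    have two : ∀ t t' : ℕ, t < 3 → t' < 3 → (t : Dg) ≠ t' → (s : Dg) + j * t ≠ 0 →
        (s : Dg) + j * t' ≠ 0 → ∃ n n' : Fin 39, (j : Dg) * ((n : ℕ) : Dg) + i = 0 ∧
          (j : Dg) * ((n' : ℕ) : Dg) + i = 0 ∧
          line (fun _ => f) i j n ≠ line (fun _ => f) i j n' := by
      intro t t' ht ht' hne h1 h2
      obtain ⟨n, a1, a2⟩ := cell t ht h1
      obtain ⟨n', b1, b2⟩ := cell t' ht' h2
      refine ⟨n, n', a1, b1, fun e => hne (mul_left_cancel₀ hj ?_)⟩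
      rw [a2, b2] at e
      exact add_left_cancel e
    have h2 : (2 : Dg) ≠ 0 := by decide
    by_cases c0 : (s : Dg) = 0
    · exact two 1 2 (by omega) (by omega) (by decide) (by simpa [c0] using hj)
        (by simpa [c0, h2] using hj)
    by_cases c1 : (s : Dg) + j = 0
    · refine two 0 2 (by omega) (by omega) (by decide) (by simpa using c0) fun e => hj ?_
      push_cast at e
      linear_combination e - c1
    · exact two 0 1 (by omega) (by omega) (by decide) (by simpa using c0) (by simpa using c1)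

end Crest.Agent.R46
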