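import Crest.Agent.R46.Tiles
import Crest.Agent.R46.Sudoku

/-!
# Row 46: the system has a solution

In column `ν` at the point `g` the digit is `dg`, the position along `hd ν` is `kk`, the row is
`(kk - g 2) mod c`.  The rows are split into blocks for the digit variable and for the helper.
-/

set_option autoImplicit false

namespace Crest.Agent.R46

open Crest.CombinatoricsR.Tiling

/-! ### the background for the special variables -/

def XZ (s : Bool) (j : ℤ) : Prop :=
  if s then 3 ≤ (j - 1) % 13 ∧ (j - 1) % 13 < 7 else (j - 1) % 13 < 3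

instance (s : Bool) (j : ℤ) : Decidable (XZ s j) := by unfold XZ; infer_instance

theorem XZ.xs {s : Bool} {j : ℤ} (h : XZ s j) : XS s (j : Dg) := by
  have e : ∀ a : ℤ, j % 13 = a % 13 → (j : Dg) = (a : Dg) := fun a ha =>
    (ZMod.intCast_eq_intCast_iff' j a 13).2 ha
  cases s
  · simp only [XZ, XS, Bool.false_eq_true, if_false] at h ⊢
    have : j % 13 = 1 ∨ j % 13 = 2 ∨ j % 13 = 3 := by omega
    rcases this with h | h | h
    · exact Or.inl (by simpa using e 1 h)
    · exact Or.inr (Or.inl (by simpa using e 2 h))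
    · exact Or.inr (Or.inr (by simpa using e 3 h))
  · simp only [XZ, XS, if_true] at h ⊢
    have : j % 13 = 4 ∨ j % 13 = 5 ∨ j % 13 = 6 ∨ j % 13 = 7 := by omega
    rcases this with h | h | h | h
    · exact Or.inl (by simpa using e 4 h)
    · exact Or.inr (Or.inl (by simpa using e 5 h))
    · exact Or.inr (Or.inr (Or.inl (by simpa using e 6 h)))
    · exact Or.inr (Or.inr (Or.inr (by simpa using e 7 h)))

def bq (i j : ℤ) : ℤ :=
  if (j - 1) % 13 < 3 then ((j - 1) % 13 + i) % 3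
  else if (j - 1) % 13 < 7 then 3 + ((j - 1) % 13 - 3 + i % 2) % 4
  else 7 + ((j - 1) % 13 - 7 + i) % 6

def fq (s : Bool) (i j : ℤ) : ℤ := if XZ s j then -i else (j - 1) % 13

theorem bq_eq {i i' j j' : ℤ} (hb : 13 ∣ bq i j - bq i' j') : bq i j = bq i' j' := by
  have h : ∀ i j, 0 ≤ bq i j ∧ bq i j < 13 := by
    intro i j
    unfold bq
    split_ifs <;> omega
  have h1 := h i j
  have h2 := h i' j'
  omega

theorem bq_inj0 {i i' j j' : ℤ} (h3 : 3 ∣ i - i') (h : 2 ∣ fq false i j - fq false i' j')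
    (hb : 13 ∣ bq i j - bq i' j') : 2 ∣ i - i' ∧ 13 ∣ j - j' := by
  have hb := bq_eq hb
  simp only [fq, XZ, bq, Bool.false_eq_true, if_false] at h hb
  suffices 2 ∣ i - i' ∧ (j - 1) % 13 = (j' - 1) % 13 by omega
  have b1 : 0 ≤ (j - 1) % 13 ∧ (j - 1) % 13 < 13 := by omega
  have b2 : 0 ≤ (j' - 1) % 13 ∧ (j' - 1) % 13 < 13 := by omega
  generalize (j - 1) % 13 = t at *
  generalize (j' - 1) % 13 = t' at *
  split_ifs at h hb <;> omega

theorem bq_inj1 {i i' j j' : ℤ} (h2 : 2 ∣ i - i') (h : 3 ∣ fq true i j - fq true i' j')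
    (hb : 13 ∣ bq i j - bq i' j') : 3 ∣ i - i' ∧ 13 ∣ j - j' := by
  have hb := bq_eq hb
  simp only [fq, XZ, bq, if_true] at h hb
  suffices 3 ∣ i - i' ∧ (j - 1) % 13 = (j' - 1) % 13 by omega
  have b1 : 0 ≤ (j - 1) % 13 ∧ (j - 1) % 13 < 13 := by omega
  have b2 : 0 ≤ (j' - 1) % 13 ∧ (j' - 1) % 13 < 13 := by omega
  generalize (j - 1) % 13 = t at *
  generalize (j' - 1) % 13 = t' at *
  split_ifs at h hb <;> omega

/-! ### the solution -/

def dg (f : ℤ → Dg) (ν : Col) (g : Z3) : Dg :=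
  match ν with
  | .inl n => f (g 1 * ((n : ℕ) : ℤ) + g 0)
  | .inr s => if XZ s (g 1) then 1 else 0

def kk (ν : Col) (g : Z3) : ℤ :=
  match ν with
  | .inl _ => g 1
  | .inr _ => g 0

theorem dg_mv (f : ℤ → Dg) (ν : Col) (g : Z3) (a b : ℤ) :
    dg f ν (g + a • hd ν + b • ev 2) = dg f ν g := by
  rcases ν with n | s
  · simp only [dg, hd]
    congr 1
    simp [ev]
    ring
  · simp [dg, hd, ev]

theorem kk_mv (ν : Col) (g : Z3) (a b : ℤ) : kk ν (g + a • hd ν + b • ev 2) = kk ν g + a := by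
  rcases ν with n | s <;> simp [kk, hd, ev]

theorem z_mv (ν : Col) (g : Z3) (a b : ℤ) : (g + a • hd ν + b • ev 2) 2 = g 2 + b := by
  rcases ν with n | s <;> simp [hd, ev]

structure Spl (P : Par) (ν : Col) (d : Dg) where
  a : ℕ
  b : ℕ
  E : ZMod (P.n (.ctl ν)) ≃
    (ZMod (P.n (.var ν (some d))) × Fin a) ⊕ (ZMod (P.n (.var ν none)) × Fin b)

theorem exists_spl (P : Par) (ν : Col) (d : Dg) : Nonempty (Spl P ν d) := by
  obtain ⟨a, b, h⟩ := P.frob ν d
  exact ⟨⟨a, b, Fintype.equivOfCardEq (by simp [h, mul_comm])⟩⟩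

noncomputable def spl (P : Par) (ν : Col) (d : Dg) : Spl P ν d := (exists_spl P ν d).some

variable (P : Par)

open Classical in
/-- value of a variable from the digit `d`, the position `k`, the row `r` and `j` -/
noncomputable def bv (ν : Col) (w : Option Dg) (d : Dg) (k : ZMod (P.n (.var ν w)))
    (r : ZMod (P.n (.ctl ν))) (j : ℤ) : ZMod (P.n (.var ν w)) :=
  match w with
  | some d' =>
    if d = d' then
      (if Sp ν (some d') then k + (((j - 1) % 13 : ℤ) : ZMod _)
      else ((spl P ν d').E r).elim (fun x => k + x.1) fun _ => 0)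
    else 0
  | none => if Sp ν (some d) then 0 else ((spl P ν d).E r).elim (fun _ => 0) fun x => k + x.1

open Classical in
noncomputable def bc (ν : Col) (d : Dg) (k : ℤ) (r : ZMod (P.n (.ctl ν))) : ZMod (P.n (.ctl ν)) :=
  if Sp ν (some d) then r
  else (spl P ν d).E.symm (((spl P ν d).E r).map (fun x => (x.1 + k, x.2)) fun x => (x.1 + k, x.2))

/-- `j` matters only for the special variables -/
def jj (ν : Col) (g : Z3) : ℤ :=
  match ν with
  | .inl _ => 0
  | .inr _ => g 1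

theorem jj_mv (ν : Col) (g : Z3) (a b : ℤ) : jj ν (g + a • hd ν + b • ev 2) = jj ν g := by
  rcases ν with n | s <;> simp [jj, hd, ev]

noncomputable def sol (f : ℤ → Dg) (g : Z3) : HH P.n := fun κ =>
  match κ with
  | .var ν w => (g 2 : ZMod _) +
      bv P ν w (dg f ν g) (kk ν g : ZMod _) ((kk ν g - g 2 : ℤ) : ZMod _) (jj ν g)
  | .ctl ν => ((g 2 / (P.n (.ctl ν) : ℤ) : ℤ) : ZMod _) +
      bc P ν (dg f ν g) (kk ν g) ((kk ν g - g 2 : ℤ) : ZMod _)
  | .top => (g 2 : ZMod _) + ((bq (g 0) (g 1) : ℤ) : ZMod _)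

variable {P} {f : ℤ → Dg}

theorem cast_zero {m : ℕ} {a : ℤ} (h : (m : ℤ) ∣ a) : (a : ZMod m) = 0 :=
  (ZMod.intCast_zmod_eq_zero_iff_dvd a m).2 h

theorem U_one (κ : Ix) : ((P.U κ : ℤ) : ZMod (P.n κ)) = 1 := by
  have := cast_zero (P.U_self κ)
  push_cast at this
  exact sub_eq_zero.1 this

theorem U_zero {κ κ' : Ix} (h : κ ≠ κ') : ((P.U κ : ℤ) : ZMod (P.n κ')) = 0 :=
  cast_zero (P.U_ne κ κ' h)

theorem sol_var (ν : Col) (w : Option Dg) (g : Z3) (a b : ℤ) :
    sol P f (g + a • hd ν + b • ev 2) (.var ν w) = (g 2 : ZMod _) + (b : ZMod _) +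
      bv P ν w (dg f ν g) ((kk ν g : ZMod _) + (a : ZMod _))
        (((kk ν g - g 2 : ℤ) : ZMod _) + ((a : ZMod _) - (b : ZMod _))) (jj ν g) := by
  simp only [sol, dg_mv, kk_mv, z_mv, jj_mv]
  push_cast
  congr 2
  ring

theorem sol_var_h (ν : Col) (w : Option Dg) (g : Z3) (a : ℤ) :
    sol P f (g + a • hd ν) (.var ν w) = (g 2 : ZMod _) +
      bv P ν w (dg f ν g) ((kk ν g : ZMod _) + (a : ZMod _))
        (((kk ν g - g 2 : ℤ) : ZMod _) + (a : ZMod _)) (jj ν g) := by
  simpa using sol_var (P := P) (f := f) ν w g a 0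

theorem sol_var_z (ν : Col) (w : Option Dg) (g : Z3) (b : ℤ) :
    sol P f (g + b • ev 2) (.var ν w) = (g 2 : ZMod _) + (b : ZMod _) +
      bv P ν w (dg f ν g) (kk ν g : ZMod _)
        (((kk ν g - g 2 : ℤ) : ZMod _) - (b : ZMod _)) (jj ν g) := by
  simpa [sub_eq_add_neg] using sol_var (P := P) (f := f) ν w g 0 b

theorem sol_var_0 (ν : Col) (w : Option Dg) (g : Z3) :
    sol P f g (.var ν w) = (g 2 : ZMod _) +
      bv P ν w (dg f ν g) (kk ν g : ZMod _) ((kk ν g - g 2 : ℤ) : ZMod _) (jj ν g) := rfl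

theorem sol_ctl_h (ν : Col) (g : Z3) (a : ℤ) :
    sol P f (g + a • hd ν) (.ctl ν) = ((g 2 / (P.n (.ctl ν) : ℤ) : ℤ) : ZMod _) +
      bc P ν (dg f ν g) (kk ν g + a) (((kk ν g - g 2 : ℤ) : ZMod _) + (a : ZMod _)) := by
  have h1 := dg_mv f ν g a 0
  have h2 := kk_mv ν g a 0
  have h3 := z_mv ν g a 0
  simp only [zero_smul, add_zero] at h1 h2 h3
  simp only [sol, h1, h2, h3]
  push_cast
  congr 2
  ring

theorem C_eq (ν : Col) :
    P.C = (P.n (.ctl ν) : ℤ) * ∏ ν' ∈ Finset.univ.erase ν, (P.n (.ctl ν') : ℤ) :=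
  (Finset.mul_prod_erase Finset.univ (fun ν' => (P.n (.ctl ν') : ℤ)) (Finset.mem_univ ν)).symm

theorem sol_equi : Equi P.C P.η (sol P f) := by
  intro g
  funext κ
  rcases κ with ⟨ν, w⟩ | ν | _
  · have hc : ((P.C : ℤ) : ZMod (P.n (.ctl ν))) = 0 := cast_zero ⟨_, C_eq ν⟩
    rw [sol_var_z, hc, Pi.add_apply, sol_var_0, sub_zero]
    show _ = _ + ((P.C : ℤ) : ZMod (P.n (.var ν w)))
    ring
  · have hc : ((P.C : ℤ) : ZMod (P.n (.ctl ν))) = 0 := cast_zero ⟨_, C_eq ν⟩
    have h1 := dg_mv f ν g 0 P.C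
    have h2 := kk_mv ν g 0 P.C
    have h3 := z_mv ν g 0 P.C
    simp only [zero_smul, add_zero] at h1 h2 h3
    have h0 : (P.n (.ctl ν) : ℤ) ≠ 0 := by exact_mod_cast (P.prime _).ne_zero
    simp only [Pi.add_apply, sol, h1, h2, h3, Par.η]
    rw [show (g 2 + P.C) / (P.n (.ctl ν) : ℤ) = g 2 / (P.n (.ctl ν) : ℤ) +
      ∏ ν' ∈ Finset.univ.erase ν, (P.n (.ctl ν') : ℤ) by
        rw [C_eq ν, Int.add_mul_ediv_left _ _ h0]]
    rw [show ((kk ν g - (g 2 + P.C) : ℤ) : ZMod (P.n (.ctl ν))) = ((kk ν g - g 2 : ℤ) : ZMod _) by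
      push_cast; rw [hc]; ring]
    rw [Int.cast_add]
    ring
  · simp only [Pi.add_apply, sol, Par.η]
    simp [ev]
    ring

theorem sol_inv1 (ν : Col) (w : Option Dg) :
    (inv P.n (.var ν w) ((P.n (.var ν w) : ℤ) • (hd ν + ev 2))).Ok (sol P f) := by
  refine inv_iff.2 fun g => ?_
  rw [smul_add, ← add_assoc, sol_var, sol_var_0]
  simp

theorem sol_inv2 (ν : Col) (w : Option Dg) :
    (inv P.n (.var ν w) (((P.n (.var ν w) : ℤ) * P.n (.ctl ν)) • hd ν)).Ok (sol P f) := by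
  refine inv_iff.2 fun g => ?_
  rw [sol_var_h, sol_var_0]
  simp

theorem bv_sp {ν : Col} {w : Option Dg} (hs : Sp ν w) (d : Dg) (k : ZMod (P.n (.var ν w)))
    (r r' : ZMod (P.n (.ctl ν))) (j : ℤ) : bv P ν w d k r j = bv P ν w d k r' j := by
  obtain ⟨h, rfl⟩ := hs
  have : Sp ν (some 0) := ⟨h, rfl⟩
  simp only [bv, this, if_true]

theorem sol_inv3 (ν : Col) (w : Option Dg) (hs : Sp ν w) :
    (inv P.n (.var ν w) ((P.n (.var ν w) : ℤ) • hd ν)).Ok (sol P f) := by
  refine inv_iff.2 fun g => ?_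
  rw [sol_var_h, sol_var_0, bv_sp hs _ _ _ ((kk ν g - g 2 : ℤ) : ZMod _)]
  simp

theorem sol_or (ν : Col) :
    (cyc P.n (fun w : Option Dg => .var ν w) (fun w => P.U (.var ν w) • hd ν) 1).Ok (sol P f) := by
  refine cyc_compl (fun a b h => by injection h) (fun g w w' h => ?_) fun g => ?_
  · rw [sol_var_h, sol_var_0, U_zero (by simpa using h), U_zero (by simp)]
    simp
  · have key : ∀ w, (∀ k, bv P ν w (dg f ν g) (k + 1) ((kk ν g - g 2 : ℤ) : ZMod _) (jj ν g) =
        bv P ν w (dg f ν g) k ((kk ν g - g 2 : ℤ) : ZMod _) (jj ν g) + 1) →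
        sol P f (g + P.U (.var ν w) • hd ν) (.var ν w) = sol P f g (.var ν w) + ((1 : ℤ) : ZMod _) := by
      intro w hw
      rw [sol_var_h, sol_var_0, U_one, U_zero (by simp), add_zero, hw]
      push_cast
      ring
    by_cases hs : Sp ν (some (dg f ν g))
    · refine ⟨some (dg f ν g), key _ fun k => ?_⟩
      simp only [bv, hs, if_true]
      ring
    · rcases hE : (spl P ν (dg f ν g)).E ((kk ν g - g 2 : ℤ) : ZMod _) with x | x
      · refine ⟨some (dg f ν g), key _ fun k => ?_⟩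
        simp only [bv, hs, if_true, if_false, hE, Sum.elim_inl]
        ring
      · refine ⟨none, key _ fun k => ?_⟩
        simp only [bv, hs, if_false, hE, Sum.elim_inr]
        ring

theorem sol_nand {ι : Type} [Fintype ι] {col : ι → Col} (hcol : Function.Injective col)
    {d : ι → Dg} (h : ∀ g, ∃ t, dg f (col t) g ≠ d t) : (nand P col d).Ok (sol P f) := by
  refine cyc_compl (fun a b h => hcol (by injection h)) (fun g t t' h => ?_) fun g => ?_
  · rw [sol_var_z, sol_var_0, U_zero (by simp), U_zero (by simpa using fun e => h (hcol e))]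
    simp
  · obtain ⟨t, ht⟩ := h g
    refine ⟨t, ?_⟩
    rw [sol_var_z, sol_var_0, U_zero (by simp)]
    simp [bv, ht]

theorem val_cast {m : ℕ} [NeZero m] (x : ZMod m) : (((x.val : ℕ) : ℤ) : ZMod m) = x := by simp

theorem sol_tc (ν : Col) (w : Option Dg) (hw : ¬ Sp ν w) :
    (tt P.n (.var ν w) (.ctl ν) (P.U (.var ν w) • hd ν) (P.U (.ctl ν) • hd ν)).Ok (sol P f) := by
  refine (tt_iff (by simp)).2 fun g => ?_
  have ha : ∀ x : ZMod (P.n (.var ν w)) × ZMod (P.n (.ctl ν)), ∃ a : ℤ,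
      (x.1.val : ℤ) • P.U (.var ν w) • hd ν + (x.2.val : ℤ) • P.U (.ctl ν) • hd ν = a • hd ν ∧
      (a : ZMod (P.n (.var ν w))) = x.1 ∧ (a : ZMod (P.n (.ctl ν))) = x.2 ∧
      ∀ w', w' ≠ w → (a : ZMod (P.n (.var ν w'))) = 0 := by
    intro x
    refine ⟨x.1.val * P.U (.var ν w) + x.2.val * P.U (.ctl ν), ?_, ?_, ?_, fun w' h => ?_⟩
    · rw [smul_smul, smul_smul, add_smul]
    · rw [Int.cast_add, Int.cast_mul, Int.cast_mul, U_one, U_zero (by simp), val_cast]; simp
    · rw [Int.cast_add, Int.cast_mul, Int.cast_mul, U_one, U_zero (by simp), val_cast]; simp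
    · rw [Int.cast_add, Int.cast_mul, Int.cast_mul, U_zero (by simpa using h.symm),
        U_zero (by simp)]; simp
  rintro ⟨x, y⟩ ⟨x', y'⟩ h
  obtain ⟨a, e, a1, a2, a3⟩ := ha (x, y)
  obtain ⟨a', e', a1', a2', a3'⟩ := ha (x', y')
  simp only at e a1 a2 e' a1' a2'
  simp only [tmap, Prod.mk.injEq, e, e', sol_var_h, sol_ctl_h, a1, a2, a1', a2', add_sub_assoc,
    add_right_inj] at h
  obtain ⟨h1, h2⟩ := h
  generalize dg f ν g = d at h1 h2
  generalize ((kk ν g - g 2 : ℤ) : ZMod (P.n (.ctl ν))) = r at h1 h2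
  generalize kk ν g = k at h1 h2
  generalize jj ν g = j at h1 h2
  have fin : x = x' → (spl P ν d).E (r + y) = (spl P ν d).E (r + y') → (x, y) = (x', y') := by
    intro hx hy
    rw [hx, add_left_cancel ((spl P ν d).E.injective hy)]
  by_cases hs : Sp ν (some d)
  · simp only [bc, hs, if_true, add_right_inj] at h2
    have h0 : ∀ k r, bv P ν w d k r j = 0 := by
      intro k r
      rcases w with _ | d'
      · simp only [bv, hs, if_true]
      · have : d ≠ d' := by rintro rfl; exact hw hs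
        simp only [bv, this, if_false]
    rw [h0, h0] at h1
    rw [h2, show x = x' by simpa using h1]
  simp only [bc, hs, if_false, Equiv.apply_eq_iff_eq, Int.cast_add] at h2
  rcases w with _ | d'
  · have b1 := a3 (some d) (by simp)
    have b1' := a3' (some d) (by simp)
    simp only [bv, hs, if_false] at h1
    rw [a1, a1', b1, b1'] at h2
    generalize (spl P ν d).E (r + y) = Z at fin h1 h2
    generalize (spl P ν d).E (r + y') = Z' at fin h1 h2
    rcases Z with ⟨z, i⟩ | ⟨z, i⟩ <;> rcases Z' with ⟨z', i'⟩ | ⟨z', i'⟩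
    · simp at h1 h2
      exact fin h1 (by rw [h2.1, h2.2])
    · simp at h2
    · simp at h2
    · simp only [Sum.elim_inr, Sum.map_inr, Sum.inr.injEq, Prod.mk.injEq] at h1 h2
      have hz : z = z' := by linear_combination h1
      exact fin (by linear_combination h2.1 - hz) (by rw [hz, h2.2])
  · have b1 := a3 none (by simp)
    have b1' := a3' none (by simp)
    by_cases hd : d = d'
    · subst hd
      simp only [bv, hs, if_false, if_true] at h1
      rw [a1, a1', b1, b1'] at h2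
      generalize (spl P ν d).E (r + y) = Z at fin h1 h2
      generalize (spl P ν d).E (r + y') = Z' at fin h1 h2
      rcases Z with ⟨z, i⟩ | ⟨z, i⟩ <;> rcases Z' with ⟨z', i'⟩ | ⟨z', i'⟩
      · simp only [Sum.elim_inl, Sum.map_inl, Sum.inl.injEq, Prod.mk.injEq] at h1 h2
        have hz : z = z' := by linear_combination h1
        exact fin (by linear_combination h2.1 - hz) (by rw [hz, h2.2])
      · simp at h2
      · simp at h2
      · simp at h1 h2
        exact fin h1 (by rw [h2.1, h2.2])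
    · have b2 := a3 (some d) (by simpa using hd)
      have b2' := a3' (some d) (by simpa using hd)
      simp only [bv, hd, if_false] at h1
      rw [b1, b1', b2, b2'] at h2
      refine fin (by simpa using h1) ?_
      revert h2
      rcases (spl P ν d).E (r + y) with ⟨z, i⟩ | ⟨z, i⟩ <;>
        rcases (spl P ν d).E (r + y') with ⟨z', i'⟩ | ⟨z', i'⟩ <;> simp

theorem dvd_of_cast {m : ℕ} {a b : ℤ} (h : (a : ZMod m) = (b : ZMod m)) : (m : ℤ) ∣ a - b :=
  (ZMod.intCast_eq_intCast_iff_dvd_sub b a m).1 h.symm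

theorem cast_of_dvd {m : ℕ} {a b : ℤ} (h : (m : ℤ) ∣ a - b) : (a : ZMod m) = (b : ZMod m) :=
  ((ZMod.intCast_eq_intCast_iff_dvd_sub b a m).2 h).symm

theorem sol_ts (ν : Col) (w : Option Dg) (hw : Sp ν w) :
    (tt P.n (.var ν w) .top (P.U (.var ν w) • hd ν) (ev 1)).Ok (sol P f) := by
  refine (tt_iff (by simp)).2 fun g => ?_
  have hw' := hw
  obtain ⟨⟨s, rfl⟩, rfl⟩ := hw'
  set v : Ix := .var (.inr s) (some 0) with hv
  have key : ∀ x : ZMod (P.n v) × ZMod (P.n .top),
      tmap (sol P f) v .top (P.U v • hd (.inr s)) (ev 1) g x =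
        (((g 2 + g 0 + fq s (g 0 + x.1.val * P.U v) (g 1 + x.2.val) : ℤ) : ZMod _),
          ((g 2 + bq (g 0 + x.1.val * P.U v) (g 1 + x.2.val) : ℤ) : ZMod _)) := by
    rintro ⟨x, y⟩
    have co : ∀ a b c : ℤ, (g + (a • c • hd (.inr s) + b • ev 1)) 0 = g 0 + a * c ∧
        (g + (a • c • hd (.inr s) + b • ev 1)) 1 = g 1 + b ∧
        (g + (a • c • hd (.inr s) + b • ev 1)) 2 = g 2 := by
      intro a b c
      simp [hd, ev]
    obtain ⟨e0, e1, e2⟩ := co x.val y.val (P.U v)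
    set g' := g + ((x.val : ℤ) • P.U v • hd (.inr s) + (y.val : ℤ) • ev 1) with hg'
    simp only [tmap, ← hg', Prod.mk.injEq]
    constructor
    · rw [sol_var_0]
      simp only [bv, hw, if_true, dg, kk, jj, e0, e1, e2, fq]
      by_cases hx : XZ s (g 1 + y.val)
      · have h10 : ¬ (1 : Dg) = 0 := by decide
        simp only [hx, if_true, h10, if_false, Int.cast_add, Int.cast_neg, Int.cast_mul, U_one,
          val_cast]
        ring
      · simp only [hx, if_true, if_false, Int.cast_add, Int.cast_mul, U_one, val_cast]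
        ring
    · simp only [sol, e0, e1, e2, Int.cast_add]
  rintro ⟨x, y⟩ ⟨x', y'⟩ h
  rw [key, key, Prod.mk.injEq] at h
  have h1 := dvd_of_cast h.1
  have h2 := dvd_of_cast h.2
  simp only [add_sub_add_left_eq_sub, P.top, Nat.cast_ofNat] at h1 h2
  have hU : (P.n (.var (.inr (!s)) (some 0)) : ℤ) ∣ P.U v := P.U_ne _ _ (by simp [hv])
  have h3 : (P.n (.var (.inr (!s)) (some 0)) : ℤ) ∣
      (g 0 + x.val * P.U v) - (g 0 + x'.val * P.U v) := by
    rw [add_sub_add_left_eq_sub, ← sub_mul]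
    exact hU.mul_left _
  have main : (P.n v : ℤ) ∣ (g 0 + x.val * P.U v) - (g 0 + x'.val * P.U v) ∧
      (13 : ℤ) ∣ (g 1 + y.val) - (g 1 + y'.val) := by
    rw [P.sp] at h3
    have hn : (P.n v : ℤ) = ((if s then 3 else 2 : ℕ) : ℤ) := by rw [← P.sp s]
    generalize g 0 + x.val * P.U v = i at h1 h2 h3 ⊢
    generalize g 0 + x'.val * P.U v = i' at h1 h2 h3 ⊢
    generalize g 1 + y.val = j at h1 h2 ⊢
    generalize g 1 + y'.val = j' at h1 h2 ⊢
    rw [hn] at h1 ⊢
    clear_value v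
    cases s
    · exact bq_inj0 h3 h1 h2
    · exact bq_inj1 h3 h1 h2
  have hx := cast_of_dvd main.1
  have hy : ((g 1 + y.val : ℤ) : ZMod (P.n .top)) = ((g 1 + y'.val : ℤ) : ZMod (P.n .top)) :=
    cast_of_dvd ((show (P.n .top : ℤ) = 13 by rw [P.top]; rfl) ▸ main.2)
  simp only [Int.cast_add, Int.cast_mul, U_one, val_cast, mul_one, add_right_inj] at hx hy
  rw [hx, hy]

theorem compl (P : Par) : ∃ α, Equi P.C P.η α ∧ Cond P α := by
  obtain ⟨f, hf, hS⟩ := exists_f
  refine ⟨sol P f, sol_equi, sol_inv1, sol_inv2, sol_inv3, sol_or, sol_tc, sol_ts,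
    fun ω hω => sol_nand Sum.inl_injective fun g => ?_, fun s d ω hd hω => sol_nand ?_ fun g => ?_⟩
  · by_contra h
    push Not at h
    exact hω ((funext h : line (fun _ => f) (g 0) (g 1) = ω) ▸ hf (g 0) (g 1))
  · rintro (_ | a) (_ | b) h <;> simp_all
  · by_contra h
    push Not at h
    have h0 : (if XZ s (g 1) then 1 else 0 : Dg) = d := h none
    have hx : XZ s (g 1) := by
      by_contra hx
      exact hd (by simpa [hx] using h0.symm)
    exact hω ((funext fun n => h (some n) : line (fun _ => f) (g 0) (g 1) = ω) ▸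
      hS s (g 0) (g 1) hx.xs)

end Crest.Agent.R46
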