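import Crest.Agent.R46.Defs

/-!
# Row 46: folding three tiling equations into one  (subtask Concat)

`cat i F = ⋃_{0 ≤ y < 21} (dil i (F (wd y)) + y e_i)`.  Let `A` tile with `cat i F`.  A *piece* is
`(a, m, f)`, `a ∈ A`, `f ∈ F m`; its *position* is `a + dil i f`; it covers the points
`position + y e_i`, `0 ≤ y < 21`, `wd y = m`.  An element `dil i f + y e_i` of `cat i F` determines
`y` (its `i`-th coordinate mod 21) and `f`.
(1) Two pieces never have positions `P`, `P + δ e_i` with `1 ≤ δ ≤ 11` (`wd_pair` gives a point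
covered by both; the two representations are different because `a = a'` would force `21 ∣ δ`).
(2) If `P` is a position then for every colour `m` there is a piece of colour `m` at `P`: with `y` from
`wd_mid` the point `P + y e_i` is covered by a piece at `P + δ e_i`, `|δ| ≤ 11`, so `δ = 0` by (1).
(3) Hence two positions never differ by `δ e_i`, `1 ≤ δ ≤ 20` (the point `P + δ e_i` is covered from
`P` with `y = δ` and from `P + δ e_i` with `y = 0`).
(4) For every `x` there is exactly one position `P` with `fl i P = x`: cover `dil i x + 20 e_i`; (3).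
`tiles_of_cat`: `fl i (a + dil i f) = fl i a + f`.
`cat_rigid`: let `ρ x ∈ [0,21)` be the residue of the position over `x`.  `ρ (x + e_i) = ρ x`: the point
`P + 21 e_i` is covered from a position `P + δ e_i`, `1 ≤ δ ≤ 21`, so `δ = 21` by (3).
`ρ (x + e_j) = ρ x` for `j ≠ i`: take the piece `(a, 0, f)` at `P`, then `a + dil i (f + e_j) = P + e_j`
is a position.  So `ρ` is constant (induction along the three axes), and `a i ≡ ρ (mod 21)` for `a ∈ A`
(`F 0` is nonempty by (2), (4)).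
`good_single`: induction on the length: `[]` is not good (`univ` is periodic); replace
`F :: F' :: l` by `cat 0 ![F, F', F'] :: l.map fun G => cat 0 fun _ => G`.
`good_rigid`: `cat i ![T, T + e_j, T + e_k]` with `{j, k} = {i}ᶜ` (e.g. `j = i + 1`, `k = i + 2`);
a tiling for `T` is a tiling for every translate of `T`; `fl i` does not change the other coordinates.
-/

set_option autoImplicit false

namespace Crest.Agent.R46

open Crest.CombinatoricsR.Tiling

def wd (y : ℤ) : Fin 3 :=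
  ([1, 2, 0, 1, 2, 0, 2, 1, 2, 0, 2, 1, 1, 1, 0, 2, 2, 0, 2, 0, 0] : List (Fin 3)).getD y.toNat 0

theorem wd_pair (δ : ℤ) (h1 : 1 ≤ δ) (h2 : δ ≤ 11) (m m' : Fin 3) :
    ∃ y : ℤ, 0 ≤ y ∧ y + δ < 21 ∧ wd (y + δ) = m ∧ wd y = m' := by
  have key : ∀ δ ∈ Finset.Icc (1 : ℤ) 11, ∀ m m' : Fin 3, ∃ y ∈ Finset.Ico (0 : ℤ) 21,
      y + δ < 21 ∧ wd (y + δ) = m ∧ wd y = m' := by decide +kernel
  obtain ⟨y, hy, h⟩ := key δ (Finset.mem_Icc.2 ⟨h1, h2⟩) m m'
  exact ⟨y, (Finset.mem_Ico.1 hy).1, h⟩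

theorem wd_mid (m : Fin 3) : ∃ y : ℤ, 9 ≤ y ∧ y ≤ 11 ∧ wd y = m := by
  fin_cases m
  · exact ⟨9, by norm_num, by norm_num, by decide⟩
  · exact ⟨11, by norm_num, by norm_num, by decide⟩
  · exact ⟨10, by norm_num, by norm_num, by decide⟩

def dil (i : Fin 3) (x : Z3) : Z3 := Function.update x i (21 * x i)

def fl (i : Fin 3) (x : Z3) : Z3 := Function.update x i (x i / 21)

noncomputable def cat (i : Fin 3) (F : Fin 3 → Finset Z3) : Finset Z3 :=
  (Finset.Ico (0 : ℤ) 21).biUnion fun y => (F (wd y)).image fun f => dil i f + y • ev i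

theorem concat_mem {i : Fin 3} {F : Fin 3 → Finset Z3} {t : Z3} :
    t ∈ cat i F ↔ ∃ y : ℤ, 0 ≤ y ∧ y < 21 ∧ ∃ f ∈ F (wd y), dil i f + y • ev i = t := by
  simp only [cat, Finset.mem_biUnion, Finset.mem_Ico, Finset.mem_image, and_assoc]

theorem concat_ev_self (i : Fin 3) : ev i i = 1 := by simp [ev]

theorem concat_ev_ne {i j : Fin 3} (h : j ≠ i) : ev i j = 0 := by simp [ev, h]

theorem concat_dil_self (i : Fin 3) (x : Z3) : dil i x i = 21 * x i := by simp [dil]

theorem concat_dil_ne {i j : Fin 3} (h : j ≠ i) (x : Z3) : dil i x j = x j := by simp [dil, h]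

theorem concat_fl_self (i : Fin 3) (x : Z3) : fl i x i = x i / 21 := by simp [fl]

theorem concat_fl_ne {i j : Fin 3} (h : j ≠ i) (x : Z3) : fl i x j = x j := by simp [fl, h]

theorem concat_dil_add (i : Fin 3) (x y : Z3) : dil i (x + y) = dil i x + dil i y := by
  funext j
  by_cases h : j = i
  · subst h
    simp only [Pi.add_apply, concat_dil_self]; ring
  · simp only [Pi.add_apply, concat_dil_ne h]

theorem concat_dil_ev_self (i : Fin 3) : dil i (ev i) = (21 : ℤ) • ev i := by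
  funext j
  by_cases h : j = i
  · subst h
    simp [concat_dil_self]
  · simp [concat_dil_ne h, concat_ev_ne h]

theorem concat_dil_ev_ne {i j : Fin 3} (hj : j ≠ i) : dil i (ev j) = ev j := by
  funext k
  by_cases h : k = i
  · subst h
    simp [concat_dil_self, concat_ev_ne hj.symm]
  · simp [concat_dil_ne h]

theorem concat_decomp (i : Fin 3) (x : Z3) : dil i (fl i x) + (x i % 21) • ev i = x := by
  funext j
  by_cases h : j = i
  · subst h
    simp only [Pi.add_apply, Pi.smul_apply, concat_dil_self, concat_fl_self, concat_ev_self,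
      smul_eq_mul]
    omega
  · simp [concat_dil_ne h, concat_fl_ne h, concat_ev_ne h]

theorem concat_fl_add (i : Fin 3) (a f : Z3) : fl i (a + dil i f) = fl i a + f := by
  funext j
  by_cases h : j = i
  · subst h
    simp only [Pi.add_apply, concat_dil_self, concat_fl_self]
    omega
  · simp [concat_dil_ne h, concat_fl_ne h]

theorem concat_inj {i : Fin 3} {f f' : Z3} {y y' : ℤ} (h0 : 0 ≤ y) (h1 : y < 21) (h0' : 0 ≤ y')
    (h1' : y' < 21) (h : dil i f + y • ev i = dil i f' + y' • ev i) : f = f' ∧ y = y' := by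
  have hi := congrFun h i
  simp only [Pi.add_apply, Pi.smul_apply, concat_dil_self, concat_ev_self, smul_eq_mul] at hi
  refine ⟨?_, by omega⟩
  funext j
  by_cases hj : j = i
  · subst hj; omega
  · have := congrFun h j
    simpa [concat_dil_ne hj, concat_ev_ne hj] using this

theorem concat_fl_dil {i : Fin 3} (x : Z3) {y : ℤ} (h0 : 0 ≤ y) (h1 : y < 21) :
    fl i (dil i x + y • ev i) = x := by
  have h := concat_decomp i (dil i x + y • ev i)
  exact (concat_inj (Int.emod_nonneg _ (by norm_num)) (Int.emod_lt_of_pos _ (by norm_num))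
    h0 h1 h).1

theorem cat_tiles {i : Fin 3} {F : Fin 3 → Finset Z3} {A : Set Z3}
    (h : ∀ m, IsTilingBy (F m) A) : IsTilingBy (cat i F) (dil i '' A) := by
  intro x
  have hy0 : 0 ≤ x i % 21 := Int.emod_nonneg _ (by norm_num)
  have hy1 : x i % 21 < 21 := Int.emod_lt_of_pos _ (by norm_num)
  obtain ⟨⟨a, f⟩, ⟨ha, hf, haf⟩, huniq⟩ := h (wd (x i % 21)) (fl i x)
  simp only at ha hf haf
  refine ⟨(dil i a, dil i f + (x i % 21) • ev i), ⟨⟨a, ha, rfl⟩,
    concat_mem.2 ⟨_, hy0, hy1, f, hf, rfl⟩, ?_⟩, ?_⟩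
  · show dil i a + (dil i f + (x i % 21) • ev i) = x
    rw [← add_assoc, ← concat_dil_add, haf, concat_decomp]
  · rintro ⟨b, t⟩ ⟨⟨a', ha', rfl⟩, ht, hsum⟩
    obtain ⟨y, h0, h1, f', hf', rfl⟩ := concat_mem.1 ht
    simp only at hsum
    rw [← add_assoc, ← concat_dil_add] at hsum
    obtain ⟨e1, e2⟩ := concat_inj h0 h1 hy0 hy1 (hsum.trans (concat_decomp i x).symm)
    subst e2
    have := huniq (a', f') ⟨ha', hf', e1⟩
    simp only [Prod.mk.injEq] at this
    obtain ⟨rfl, rfl⟩ := this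
    rfl

/-- there is a piece of colour `m` at position `P` -/
def ConcatPos (i : Fin 3) (F : Fin 3 → Finset Z3) (A : Set Z3) (m : Fin 3) (P : Z3) : Prop :=
  ∃ a ∈ A, ∃ f ∈ F m, a + dil i f = P

theorem concat_uniq {i : Fin 3} {F : Fin 3 → Finset Z3} {A : Set Z3}
    (h : IsTilingBy (cat i F) A) {a a' f f' : Z3} {y y' : ℤ} (ha : a ∈ A) (ha' : a' ∈ A)
    (h0 : 0 ≤ y) (h1 : y < 21) (h0' : 0 ≤ y') (h1' : y' < 21) (hf : f ∈ F (wd y))
    (hf' : f' ∈ F (wd y')) (he : a + dil i f + y • ev i = a' + dil i f' + y' • ev i) :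
    a = a' ∧ f = f' ∧ y = y' := by
  have := (h (a + dil i f + y • ev i)).unique
    (y₁ := (a, dil i f + y • ev i)) (y₂ := (a', dil i f' + y' • ev i))
    ⟨ha, concat_mem.2 ⟨y, h0, h1, f, hf, rfl⟩, (add_assoc _ _ _).symm⟩
    ⟨ha', concat_mem.2 ⟨y', h0', h1', f', hf', rfl⟩, by rw [he]; exact (add_assoc _ _ _).symm⟩
  simp only [Prod.mk.injEq] at this
  exact ⟨this.1, concat_inj h0 h1 h0' h1' this.2⟩

theorem concat_cover {i : Fin 3} {F : Fin 3 → Finset Z3} {A : Set Z3}
    (h : IsTilingBy (cat i F) A) (x : Z3) :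
    ∃ y : ℤ, 0 ≤ y ∧ y < 21 ∧ ConcatPos i F A (wd y) (x - y • ev i) := by
  obtain ⟨⟨a, t⟩, ⟨ha, ht, hsum⟩, -⟩ := h x
  obtain ⟨y, h0, h1, f, hf, rfl⟩ := concat_mem.1 ht
  simp only at ha hsum
  refine ⟨y, h0, h1, a, ha, f, hf, ?_⟩
  rw [← hsum]; abel

theorem concat_near {i : Fin 3} {F : Fin 3 → Finset Z3} {A : Set Z3}
    (h : IsTilingBy (cat i F) A) {m m' : Fin 3} {P : Z3} {δ : ℤ} (h1 : 1 ≤ δ) (h2 : δ ≤ 11)
    (hP : ConcatPos i F A m P) (hP' : ConcatPos i F A m' (P + δ • ev i)) : False := by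
  obtain ⟨a, ha, f, hf, e⟩ := hP
  obtain ⟨a', ha', f', hf', e'⟩ := hP'
  obtain ⟨y, y0, y1, rfl, rfl⟩ := wd_pair δ h1 h2 m m'
  have := concat_uniq h ha ha' (y := y + δ) (y' := y) (by omega) y1 y0 (by omega) hf hf'
    (by rw [e, e', add_smul]; abel)
  omega

theorem concat_colour {i : Fin 3} {F : Fin 3 → Finset Z3} {A : Set Z3}
    (h : IsTilingBy (cat i F) A) {m : Fin 3} {P : Z3} (hP : ConcatPos i F A m P) (m' : Fin 3) :
    ConcatPos i F A m' P := by
  obtain ⟨y, y0, y1, rfl⟩ := wd_mid m'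
  obtain ⟨y', h0, h1, hP'⟩ := concat_cover h (P + y • ev i)
  rcases lt_trichotomy y' y with hlt | rfl | hlt
  · exfalso
    refine concat_near h (δ := y - y') (by omega) (by omega) hP (m' := wd y') ?_
    convert hP' using 1
    rw [sub_smul]; abel
  · simpa using hP'
  · exfalso
    refine concat_near h (δ := y' - y) (by omega) (by omega) hP' (m' := m) ?_
    convert hP using 1
    rw [sub_smul]; abel

theorem concat_far {i : Fin 3} {F : Fin 3 → Finset Z3} {A : Set Z3}
    (h : IsTilingBy (cat i F) A) {m m' : Fin 3} {P : Z3} {δ : ℤ} (h1 : 1 ≤ δ) (h2 : δ ≤ 20)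
    (hP : ConcatPos i F A m P) (hP' : ConcatPos i F A m' (P + δ • ev i)) : False := by
  obtain ⟨a, ha, f, hf, e⟩ := concat_colour h hP (wd δ)
  obtain ⟨a', ha', f', hf', e'⟩ := concat_colour h hP' (wd 0)
  have := concat_uniq h ha ha' (y := δ) (y' := 0) (by omega) (by omega) le_rfl (by norm_num) hf hf'
    (by rw [e, e']; simp)
  omega

theorem concat_over_uniq {i : Fin 3} {F : Fin 3 → Finset Z3} {A : Set Z3}
    (h : IsTilingBy (cat i F) A) {m m' : Fin 3} {x : Z3} {r r' : ℤ} (h0 : 0 ≤ r) (h1 : r < 21)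
    (h0' : 0 ≤ r') (h1' : r' < 21) (hP : ConcatPos i F A m (dil i x + r • ev i))
    (hP' : ConcatPos i F A m' (dil i x + r' • ev i)) : r = r' := by
  rcases lt_trichotomy r r' with hlt | rfl | hlt
  · exfalso
    refine concat_far h (δ := r' - r) (by omega) (by omega) hP (m' := m') ?_
    convert hP' using 1
    rw [sub_smul]; abel
  · rfl
  · exfalso
    refine concat_far h (δ := r - r') (by omega) (by omega) hP' (m' := m) ?_
    convert hP using 1
    rw [sub_smul]; abel

theorem concat_over_ex {i : Fin 3} {F : Fin 3 → Finset Z3} {A : Set Z3}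
    (h : IsTilingBy (cat i F) A) (m : Fin 3) (x : Z3) :
    ∃ r : ℤ, 0 ≤ r ∧ r < 21 ∧ ConcatPos i F A m (dil i x + r • ev i) := by
  obtain ⟨y, h0, h1, hP⟩ := concat_cover h (dil i x + (20 : ℤ) • ev i)
  refine ⟨20 - y, by omega, by omega, concat_colour h (m := wd y) ?_ m⟩
  convert hP using 1
  rw [sub_smul]; abel

theorem tiles_of_cat {i : Fin 3} {F : Fin 3 → Finset Z3} {A : Set Z3}
    (h : IsTilingBy (cat i F) A) (m : Fin 3) : IsTilingBy (F m) (fl i '' A) := by
  intro x
  obtain ⟨r, r0, r1, a, ha, f, hf, e⟩ := concat_over_ex h m x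
  have hx : fl i a + f = x := by rw [← concat_fl_add, e, concat_fl_dil x r0 r1]
  refine ⟨(fl i a, f), ⟨⟨a, ha, rfl⟩, hf, hx⟩, ?_⟩
  rintro ⟨b, f'⟩ ⟨⟨a', ha', rfl⟩, hf', hsum⟩
  simp only at hf' hsum
  rw [← concat_fl_add] at hsum
  have hd := concat_decomp i (a' + dil i f')
  rw [hsum] at hd
  have hr : r = (a' + dil i f') i % 21 :=
    concat_over_uniq h (m := m) (m' := m) r0 r1 (Int.emod_nonneg _ (by norm_num))
      (Int.emod_lt_of_pos _ (by norm_num)) ⟨a, ha, f, hf, e⟩ ⟨a', ha', f', hf', hd.symm⟩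
  rw [← hr, ← e] at hd
  obtain ⟨y, y0, y1, rfl⟩ := wd_mid m
  obtain ⟨rfl, rfl, -⟩ := concat_uniq h ha ha' (y := y) (y' := y) (by omega) (by omega) (by omega)
    (by omega) hf hf' (by rw [hd])
  rfl

theorem cat_rigid {i : Fin 3} {F : Fin 3 → Finset Z3} {A : Set Z3} (h : IsTilingBy (cat i F) A)
    (hF : ∀ j, j ≠ i → ∀ f ∈ F 0, ∃ m, f + ev j ∈ F m) :
    ∀ a ∈ A, ∀ a' ∈ A, (21 : ℤ) ∣ a i - a' i := by
  -- one step forward
  have step : ∀ (j : Fin 3) (P : Z3), ConcatPos i F A 0 P →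
      ConcatPos i F A 0 (P + dil i (ev j)) := by
    intro j P hP
    by_cases hj : j = i
    · subst hj
      rw [concat_dil_ev_self]
      obtain ⟨y, h0, h1, hP'⟩ := concat_cover h (P + (21 : ℤ) • ev j)
      by_cases hy : y = 0
      · subst hy
        exact concat_colour h (m := wd 0) (by simpa using hP') 0
      · exfalso
        refine concat_far h (δ := 21 - y) (by omega) (by omega) hP (m' := wd y) ?_
        convert hP' using 1
        rw [sub_smul]; abel
    · obtain ⟨a, ha, f, hf, e⟩ := hP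
      obtain ⟨m, hm⟩ := hF j hj f hf
      refine concat_colour h (m := m) ⟨a, ha, _, hm, ?_⟩ 0
      rw [concat_dil_add, ← e, add_assoc]
  have fwd : ∀ (j : Fin 3) (x : Z3) (r : ℤ), ConcatPos i F A 0 (dil i x + r • ev i) →
      ConcatPos i F A 0 (dil i (x + ev j) + r • ev i) := by
    intro j x r hP
    convert step j _ hP using 1
    rw [concat_dil_add]; abel
  have bwd : ∀ (j : Fin 3) (x : Z3) (r : ℤ), 0 ≤ r → r < 21 →
      ConcatPos i F A 0 (dil i x + r • ev i) →
      ConcatPos i F A 0 (dil i (x - ev j) + r • ev i) := by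
    intro j x r r0 r1 hP
    obtain ⟨r', r0', r1', hP'⟩ := concat_over_ex h 0 (x - ev j)
    have h2 := fwd j _ _ hP'
    rw [sub_add_cancel] at h2
    rw [concat_over_uniq h r0 r1 r0' r1' hP h2]
    exact hP'
  have line : ∀ (j : Fin 3) (n : ℤ) (x : Z3) (r : ℤ), 0 ≤ r → r < 21 →
      ConcatPos i F A 0 (dil i x + r • ev i) →
      ConcatPos i F A 0 (dil i (x + n • ev j) + r • ev i) := by
    intro j n x r r0 r1 hP
    induction n using Int.induction_on with
    | zero => simpa using hP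
    | succ n ih =>
      convert fwd j _ _ ih using 3
      rw [add_smul, one_smul, add_assoc]
    | pred n ih =>
      convert bwd j _ _ r0 r1 ih using 3
      rw [sub_smul, one_smul, add_sub_assoc]
  have all : ∀ (x x' : Z3) (r : ℤ), 0 ≤ r → r < 21 →
      ConcatPos i F A 0 (dil i x + r • ev i) → ConcatPos i F A 0 (dil i x' + r • ev i) := by
    intro x x' r r0 r1 hP
    have h1 := line 2 (x' 2 - x 2) _ r r0 r1 (line 1 (x' 1 - x 1) _ r r0 r1
      (line 0 (x' 0 - x 0) x r r0 r1 hP))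
    convert h1 using 3
    funext k
    fin_cases k <;> simp [ev]
  intro a ha a' ha'
  obtain ⟨-, -, -, -, -, f, hf, -⟩ := concat_over_ex h 0 0
  have m0 : ∀ z : ℤ, 0 ≤ z % 21 := fun z => Int.emod_nonneg _ (by norm_num)
  have m1 : ∀ z : ℤ, z % 21 < 21 := fun z => Int.emod_lt_of_pos _ (by norm_num)
  have hP : ConcatPos i F A 0 (dil i (fl i (a + dil i f)) + ((a + dil i f) i % 21) • ev i) := by
    rw [concat_decomp]; exact ⟨a, ha, f, hf, rfl⟩
  have hP' : ConcatPos i F A 0
      (dil i (fl i (a' + dil i f)) + ((a' + dil i f) i % 21) • ev i) := by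
    rw [concat_decomp]; exact ⟨a', ha', f, hf, rfl⟩
  have := concat_over_uniq h (m0 _) (m1 _) (m0 _) (m1 _) (all _ _ _ (m0 _) (m1 _) hP) hP'
  simp only [Pi.add_apply, concat_dil_self] at this
  omega

theorem per_fl {i : Fin 3} {A : Set Z3} (h : Per A) : Per (fl i '' A) := by
  obtain ⟨L, hL, hper⟩ := h
  have iter : ∀ (j : Fin 3) (n : ℕ), ∀ a ∈ A, a + ((n : ℤ) * L) • ev j ∈ A := by
    intro j n a ha
    induction n with
    | zero => simpa using ha
    | succ n ih =>
      convert hper j _ ih using 1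
      push_cast
      rw [add_mul, one_mul, add_smul, add_assoc]
  refine ⟨L, hL, ?_⟩
  rintro j _ ⟨a, ha, rfl⟩
  refine ⟨a + dil i ((L : ℤ) • ev j), ?_, concat_fl_add i a _⟩
  by_cases hj : j = i
  · subst hj
    convert iter j 21 a ha using 2
    funext k
    by_cases hk : k = j
    · subst hk
      simp [concat_dil_self, concat_ev_self]
    · simp [concat_dil_ne hk, concat_ev_ne hk]
  · convert hper j a ha using 2
    funext k
    by_cases hk : k = i
    · subst hk
      simp [concat_dil_self, concat_ev_ne (Ne.symm hj)]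
    · simp [concat_dil_ne hk]

theorem good_single {l : List (Finset Z3)} (h : Good l) : ∃ T, Good [T] := by
  suffices H : ∀ n : ℕ, ∀ l : List (Finset Z3), l.length = n + 1 → Good l → ∃ T, Good [T] by
    rcases l with _ | ⟨F, l⟩
    · exact absurd ⟨1, le_rfl, fun _ _ _ => Set.mem_univ _⟩ (h.2 Set.univ (by simp))
    · exact H l.length _ rfl h
  intro n
  induction n with
  | zero =>
    intro l hl h
    rcases l with _ | ⟨F, _ | ⟨F', l⟩⟩
    · simp at hl
    · exact ⟨F, h⟩
    · simp at hl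
  | succ n ih =>
    intro l hl h
    rcases l with _ | ⟨F, _ | ⟨F', l⟩⟩
    · simp at hl
    · simp at hl
    refine ih (cat 0 ![F, F', F'] :: l.map fun G => cat 0 fun _ => G) (by simpa using hl) ⟨?_, ?_⟩
    · obtain ⟨A, hA⟩ := h.1
      refine ⟨dil 0 '' A, ?_⟩
      intro G hG
      rcases List.mem_cons.1 hG with rfl | hG
      · refine cat_tiles fun m => ?_
        fin_cases m
        · exact hA F (by simp)
        · exact hA F' (by simp)
        · exact hA F' (by simp)
      · obtain ⟨G', hG', rfl⟩ := List.mem_map.1 hG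
        exact cat_tiles fun _ => hA G' (by simp [hG'])
    · intro A hA hper
      refine h.2 (fl 0 '' A) ?_ (per_fl hper)
      have h0 := hA _ List.mem_cons_self
      intro G hG
      rcases List.mem_cons.1 hG with rfl | hG
      · exact tiles_of_cat h0 0
      rcases List.mem_cons.1 hG with rfl | hG
      · exact tiles_of_cat h0 1
      · exact tiles_of_cat (F := fun _ => G)
          (hA _ (List.mem_cons_of_mem _ (List.mem_map.2 ⟨G, hG, rfl⟩))) 0

theorem concat_translate {T : Finset Z3} {A : Set Z3} (h : IsTilingBy T A) (v : Z3) :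
    IsTilingBy (T.image (· + v)) A := by
  intro x
  obtain ⟨⟨a, t⟩, ⟨ha, ht, hsum⟩, huniq⟩ := h (x - v)
  simp only at ha ht hsum
  refine ⟨(a, t + v), ⟨ha, Finset.mem_image.2 ⟨t, ht, rfl⟩, ?_⟩, ?_⟩
  · show a + (t + v) = x
    rw [← add_assoc, hsum, sub_add_cancel]
  · rintro ⟨a', s⟩ ⟨ha', hs, hsum'⟩
    obtain ⟨t', ht', rfl⟩ := Finset.mem_image.1 hs
    simp only at ha' hsum'
    have := huniq (a', t') ⟨ha', ht', by rw [← hsum']; simp only; abel⟩
    simp only [Prod.mk.injEq] at this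
    obtain ⟨rfl, rfl⟩ := this
    rfl

theorem good_rigid {T : Finset Z3} (h : Good [T]) (i : Fin 3) :
    ∃ T', Good [T'] ∧ Rigid i T' ∧ ∀ j, j ≠ i → Rigid j T → Rigid j T' := by
  refine ⟨cat i ![T, T.image (· + ev (i + 1)), T.image (· + ev (i + 2))], ⟨?_, ?_⟩, ?_, ?_⟩
  · obtain ⟨A, hA⟩ := h.1
    have hT := hA T (by simp)
    refine ⟨dil i '' A, ?_⟩
    intro G hG
    rw [List.mem_singleton.1 hG]
    refine cat_tiles fun m => ?_
    fin_cases m
    · exact hT
    · exact concat_translate hT _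
    · exact concat_translate hT _
  · intro A hA hper
    refine h.2 (fl i '' A) ?_ (per_fl hper)
    intro G hG
    rw [List.mem_singleton.1 hG]
    exact tiles_of_cat (hA _ List.mem_cons_self) 0
  · refine ⟨21, by norm_num, fun A hA => cat_rigid hA ?_⟩
    intro j hj f hf
    have hj' : j = i + 1 ∨ j = i + 2 :=
      (by decide : ∀ i j : Fin 3, j ≠ i → j = i + 1 ∨ j = i + 2) i j hj
    rcases hj' with rfl | rfl
    · exact ⟨1, Finset.mem_image.2 ⟨f, hf, rfl⟩⟩
    · exact ⟨2, Finset.mem_image.2 ⟨f, hf, rfl⟩⟩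
  · rintro j hj ⟨K, hK, hR⟩
    refine ⟨K, hK, fun A hA a ha a' ha' => ?_⟩
    have := hR (fl i '' A) (tiles_of_cat hA 0) _ ⟨a, ha, rfl⟩ _ ⟨a', ha', rfl⟩
    rwa [concat_fl_ne hj, concat_fl_ne hj] at this

theorem exists_rigid {l : List (Finset Z3)} (h : Good l) : ∃ T, Good [T] ∧ ∀ i, Rigid i T := by
  obtain ⟨T, h⟩ := good_single h
  obtain ⟨T₀, h, r₀, -⟩ := good_rigid h 0
  obtain ⟨T₁, h, r₁, k₁⟩ := good_rigid h 1
  obtain ⟨T₂, h, r₂, k₂⟩ := good_rigid h 2
  refine ⟨T₂, h, fun i => ?_⟩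
  fin_cases i
  · exact k₂ 0 (by decide) (k₁ 0 (by decide) r₀)
  · exact k₂ 1 (by decide) r₁
  · exact r₂

end Crest.Agent.R46
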