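import Mathlib
import Crest.Prelude.Def_Tiling

/-!
# Row 46 (aperiodic monotile in `ℤ³`): definitions  (complete file)

Plan.  A system of tiling equations in `ℤ³` is folded into one rigid tile (`Concat`, `Real`).
The common tilings of our system are the zero sets of maps `α : ℤ³ → H`, `H = ∏ ZMod (n κ)` cyclic,
`α (g + C e₃) = α g + η` (`Bridge`); a tile `(s, e)` says that `u ↦ α (g + s u) + e u` is bijective.
Two kinds of tiles (`Tiles`): cyclic tiles (invariance, OR, NAND) and `tt` tiles (equidistribution).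
They encode a 13-adic Sudoku with non-degeneracy (`Sound`, `Compl`), which has a solution but no
periodic one (`Sudoku`).
-/

set_option autoImplicit false

namespace Crest.Agent.R46

open Crest.CombinatoricsR.Tiling

abbrev Z3 := Fin 3 → ℤ

def ev (i : Fin 3) : Z3 := Pi.single i 1

/-- periodic in the three coordinate directions -/
def Per (A : Set Z3) : Prop := ∃ L : ℕ, 1 ≤ L ∧ ∀ i, ∀ a ∈ A, a + (L : ℤ) • ev i ∈ A

/-- a system with a common tiling and without periodic common tiling -/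
def Good (l : List (Finset Z3)) : Prop :=
  (∃ A, ∀ F ∈ l, IsTilingBy F A) ∧ ∀ A, (∀ F ∈ l, IsTilingBy F A) → ¬ Per A

def Rigid (i : Fin 3) (T : Finset Z3) : Prop :=
  ∃ K : ℤ, 2 ≤ K ∧ ∀ A, IsTilingBy T A → ∀ a ∈ A, ∀ a' ∈ A, K ∣ a i - a' i

/-! ### functional form of tiling equations -/

structure Tile (H : Type) where
  s : H → Z3
  e : H → H

def Tile.Ok {H : Type} [AddCommGroup H] (τ : Tile H) (α : Z3 → H) : Prop :=
  ∀ g, Function.Bijective fun u => α (g + τ.s u) + τ.e u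

def Equi {H : Type} [AddCommGroup H] (C : ℤ) (η : H) (α : Z3 → H) : Prop :=
  ∀ g, α (g + C • ev 2) = α g + η

/-- expressible properties -/
def Expr {H : Type} [AddCommGroup H] (Q : (Z3 → H) → Prop) : Prop :=
  ∃ S : Set (Tile H), S.Finite ∧ ∀ α, (∀ τ ∈ S, τ.Ok α) ↔ Q α

/-- a cyclic successor on a finite type -/
noncomputable def nx {ι : Type} [Fintype ι] (t : ι) : ι :=
  (Fintype.equivFin ι).symm (finRotate _ (Fintype.equivFin ι t))

abbrev HH {K : Type} (n : K → ℕ) : Type := ∀ κ, ZMod (n κ)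

open Classical in
/-- cyclic tile: for every `g` some `t` has `α (g + ∑ σ) (v t) = α g (v t) + δ` -/
noncomputable def cyc {K : Type} (n : K → ℕ) {ι : Type} [Fintype ι] (v : ι → K) (σ : ι → Z3)
    (δ : ℤ) : Tile (HH n) where
  s u := ∑ t, if u (v (nx t)) = 0 then σ t else 0
  e u := fun κ => u κ - ∑ t, if v t = κ ∧ u (v (nx t)) = 0 then (δ : ZMod (n κ)) else 0

open Classical in
/-- equidistribution tile for the coordinates `v`, `c` -/
noncomputable def tt {K : Type} (n : K → ℕ) (v c : K) (σ ρ : Z3) : Tile (HH n) where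
  s u := ((u v).val : ℤ) • σ + ((u c).val : ℤ) • ρ
  e u := fun κ => if κ = v then - u κ else if κ = c then 0 else u κ

/-- invariance tile -/
noncomputable def inv {K : Type} (n : K → ℕ) (v : K) (σ : Z3) : Tile (HH n) :=
  cyc n (fun _ : Unit => v) (fun _ => σ) 0

/-! ### the Sudoku -/

abbrev Dg := ZMod 13

def Aff (a b : Dg) (ω : Fin 39 → Dg) : Prop :=
  ∀ n : Fin 39, a * ((n : ℕ) : Dg) + b ≠ 0 → ω n = a * ((n : ℕ) : Dg) + b

def Rule (ω : Fin 39 → Dg) : Prop :=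
  ∃ a b : Dg, ¬ (a = 0 ∧ b = 0) ∧ Aff a b ω ∧ (a ≠ 0 → ∃ n n' : Fin 39,
    a * ((n : ℕ) : Dg) + b = 0 ∧ a * ((n' : ℕ) : Dg) + b = 0 ∧ ω n ≠ ω n')

def XS (s : Bool) (a : Dg) : Prop :=
  if s then a = 4 ∨ a = 5 ∨ a = 6 ∨ a = 7 else a = 1 ∨ a = 2 ∨ a = 3

instance (s : Bool) (a : Dg) : Decidable (XS s a) := by unfold XS; infer_instance

def RuleS (s : Bool) (ω : Fin 39 → Dg) : Prop := ∃ a b : Dg, XS s a ∧ Aff a b ω

/-- the line with intercept `i` and slope `j` -/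
def line (F : Fin 39 → ℤ → Dg) (i j : ℤ) : Fin 39 → Dg := fun n => F n (j * ((n : ℕ) : ℤ) + i)

/-! ### the system -/

abbrev Col := Fin 39 ⊕ Bool

inductive Ix | var (ν : Col) (w : Option Dg) | ctl (ν : Col) | top
  deriving DecidableEq, Fintype

/-- the special variables -/
def Sp (ν : Col) (w : Option Dg) : Prop := (∃ s, ν = .inr s) ∧ w = some 0

structure Par where
  n : Ix → ℕ
  prime : ∀ κ, (n κ).Prime
  inj : Function.Injective n
  top : n .top = 13
  sp : ∀ s, n (.var (.inr s) (some 0)) = if s then 3 else 2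
  frob : ∀ ν d, ∃ a b : ℕ, n (.ctl ν) = a * n (.var ν (some d)) + b * n (.var ν none)
  U : Ix → ℤ
  U_self : ∀ κ, (n κ : ℤ) ∣ U κ - 1
  U_ne : ∀ κ κ', κ ≠ κ' → (n κ' : ℤ) ∣ U κ

instance (P : Par) (κ : Ix) : NeZero (P.n κ) := ⟨(P.prime κ).ne_zero⟩
instance (P : Par) (κ : Ix) : Fact (P.n κ).Prime := ⟨P.prime κ⟩

/-- direction in which the cell of a column does not change -/
def hd : Col → Z3
  | .inl n => ev 1 - ((n : ℕ) : ℤ) • ev 0
  | .inr _ => ev 0

/-- (realises the equation lemmas once) -/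
theorem defs_eqns (i : Fin 3) (n : Fin 39) (s : Bool) :
    ev i = Pi.single i 1 ∧ hd (.inl n) = ev 1 - ((n : ℕ) : ℤ) • ev 0 ∧ hd (.inr s) = ev 0 :=
  ⟨ev.eq_1 i, hd.eq_1 n, hd.eq_2 s⟩

def Par.C (P : Par) : ℤ := ∏ ν : Col, (P.n (.ctl ν) : ℤ)

def Par.η (P : Par) : HH P.n := fun κ =>
  match κ with
  | .ctl ν => ((∏ ν' ∈ Finset.univ.erase ν, (P.n (.ctl ν') : ℤ) : ℤ) : ZMod (P.n (.ctl ν)))
  | κ => ((P.C : ℤ) : ZMod (P.n κ))

noncomputable def nand (P : Par) {ι : Type} [Fintype ι] (col : ι → Col) (d : ι → Dg) :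
    Tile (HH P.n) :=
  cyc P.n (fun t => .var (col t) (some (d t))) (fun t => P.U (.ctl (col t)) • ev 2) 0

/-- the system of tiling equations -/
structure Cond (P : Par) (α : Z3 → HH P.n) : Prop where
  inv1 : ∀ ν w, (inv P.n (.var ν w) ((P.n (.var ν w) : ℤ) • (hd ν + ev 2))).Ok α
  inv2 : ∀ ν w, (inv P.n (.var ν w) (((P.n (.var ν w) : ℤ) * P.n (.ctl ν)) • hd ν)).Ok α
  inv3 : ∀ ν w, Sp ν w → (inv P.n (.var ν w) ((P.n (.var ν w) : ℤ) • hd ν)).Ok α
  or : ∀ ν, (cyc P.n (fun w : Option Dg => .var ν w) (fun w => P.U (.var ν w) • hd ν) 1).Ok α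
  tc : ∀ ν w, ¬ Sp ν w →
    (tt P.n (.var ν w) (.ctl ν) (P.U (.var ν w) • hd ν) (P.U (.ctl ν) • hd ν)).Ok α
  ts : ∀ ν w, Sp ν w → (tt P.n (.var ν w) .top (P.U (.var ν w) • hd ν) (ev 1)).Ok α
  nand1 : ∀ ω, ¬ Rule ω → (nand P Sum.inl ω).Ok α
  nand2 : ∀ (s : Bool) (d : Dg) (ω : Fin 39 → Dg), d ≠ 0 → ¬ RuleS s ω →
    (nand P (fun o : Option (Fin 39) => o.elim (.inr s) .inl) (fun o => o.elim d ω)).Ok α

end Crest.Agent.R46
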