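import Crest.Agent.R46.Defs

/-!
# Row 46: choice of the moduli  (subtask Par)

`exists_par`: special variables get `2`, `3`, `top` gets `13`; the other variables get distinct primes
`> 13` (an injection of a finite type into the infinite set of primes `> 13`, `Set.Infinite.natEmbedding`,
`Fintype.equivFin`); with `M` a bound for all these, the controls get distinct primes `> M * M`;
`frob` from the Frobenius number of two coprime integers (`frobeniusNumber_pair` or
`Nat.exists_add_mul_eq_of_gcd_dvd_of_mul_pred_le`; note `.var ν none` is never special and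
`.var ν (some d) ≠ .var ν none`).  `U κ`: let `R = ∏_{κ' ≠ κ} n κ'`, coprime to `n κ`; `U κ = R * x` with
`R * x ≡ 1 (mod n κ)` (Bezout).
`eta_gen`: every coordinate of `η` is nonzero in the field `ZMod (n κ)` (a prime does not divide a
product of other primes); put `t = ∑ κ, U κ * (h κ / η κ).val`.
-/

set_option autoImplicit false

namespace Crest.Agent.R46

open Crest.CombinatoricsR.Tiling

theorem par_primes (ι : Type) [Fintype ι] (M : ℕ) :
    ∃ f : ι → ℕ, Function.Injective f ∧ ∀ i, (f i).Prime ∧ M < f i := by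
  have h : ({p | p.Prime} \ Set.Iic M).Infinite := Nat.infinite_setOfPred_prime.sdiff (Set.finite_Iic M)
  refine ⟨fun i => h.natEmbedding _ (Fintype.equivFin ι i), fun i j e => ?_, fun i => ?_⟩
  · exact (Fintype.equivFin ι).injective (Fin.ext ((h.natEmbedding _).injective (Subtype.ext e)))
  · exact ⟨(h.natEmbedding _ _).2.1, not_le.1 (h.natEmbedding _ _).2.2⟩

theorem par_idem {K : Type} [Fintype K] {n : K → ℕ} (hp : ∀ κ, (n κ).Prime)
    (hi : Function.Injective n) (κ : K) :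
    ∃ U : ℤ, (n κ : ℤ) ∣ U - 1 ∧ ∀ κ', κ ≠ κ' → (n κ' : ℤ) ∣ U := by
  classical
  have h : IsCoprime (n κ : ℤ) (∏ κ' ∈ Finset.univ.erase κ, (n κ' : ℤ)) :=
    IsCoprime.prod_right fun κ' hκ' => Nat.isCoprime_iff_coprime.2
      ((Nat.coprime_primes (hp κ) (hp κ')).2 (hi.ne (Finset.ne_of_mem_erase hκ').symm))
  obtain ⟨a, b, hab⟩ := h
  refine ⟨b * ∏ κ' ∈ Finset.univ.erase κ, (n κ' : ℤ), ⟨-a, by linear_combination hab⟩,
    fun κ' h => Dvd.dvd.mul_left (Finset.dvd_prod_of_mem _ ?_) _⟩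
  exact Finset.mem_erase.2 ⟨h.symm, Finset.mem_univ _⟩

theorem exists_par : Nonempty Par := by
  obtain ⟨f, hfi, hf⟩ := par_primes Ix 13
  obtain ⟨M, hM⟩ : ∃ M, ∀ κ, f κ ≤ M := ⟨Finset.univ.sup f, fun κ => Finset.le_sup (Finset.mem_univ κ)⟩
  obtain ⟨g, hgi, hg⟩ := par_primes Ix (M * M)
  have hM' : 13 < M := (hf .top).2.trans_le (hM _)
  have hMM : M ≤ M * M := Nat.le_mul_self M
  let n : Ix → ℕ := fun κ => match κ with
    | .var ν w => if ν = .inr false ∧ w = some 0 then 2 else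
        if ν = .inr true ∧ w = some 0 then 3 else f κ
    | .ctl _ => g κ
    | .top => 13
  have key : ∀ κ, (κ = .var (.inr false) (some 0) ∧ n κ = 2) ∨ (κ = .var (.inr true) (some 0) ∧ n κ = 3) ∨
      (κ = .top ∧ n κ = 13) ∨ n κ = g κ ∨ n κ = f κ := fun κ => by
    rcases κ with ⟨ν, w⟩ | ν | _
    · by_cases h1 : ν = .inr false ∧ w = some 0
      · exact Or.inl ⟨by rw [h1.1, h1.2], if_pos h1⟩
      by_cases h2 : ν = .inr true ∧ w = some 0
      · exact Or.inr (Or.inl ⟨by rw [h2.1, h2.2], (if_neg h1).trans (if_pos h2)⟩)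
      · exact Or.inr (Or.inr (Or.inr (Or.inr ((if_neg h1).trans (if_neg h2)))))
    · exact Or.inr (Or.inr (Or.inr (Or.inl rfl)))
    · exact Or.inr (Or.inr (Or.inl ⟨rfl, rfl⟩))
  have hp : ∀ κ, (n κ).Prime := fun κ => by
    rcases key κ with ⟨-, h⟩ | ⟨-, h⟩ | ⟨-, h⟩ | h | h <;> rw [h]
    exacts [by norm_num, by norm_num, by norm_num, (hg κ).1, (hf κ).1]
  have hi : Function.Injective n := fun κ κ' e => by
    have h1 := (hf κ).2
    have h2 := (hf κ').2
    have h3 := (hg κ).2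
    have h4 := (hg κ').2
    have h5 := hM κ
    have h6 := hM κ'
    generalize M * M = N at h3 h4 hMM
    rcases key κ with ⟨k, h⟩ | ⟨k, h⟩ | ⟨k, h⟩ | h | h <;>
      rcases key κ' with ⟨k', h'⟩ | ⟨k', h'⟩ | ⟨k', h'⟩ | h' | h' <;>
      first
        | exact k.trans k'.symm
        | exact hgi (h.symm.trans (e.trans h'))
        | exact hfi (h.symm.trans (e.trans h'))
        | omega
  have hv : ∀ ν w, n (.var ν w) ≤ M := fun ν w => by
    have := hM (.var ν w)
    simp only [n]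
    split_ifs <;> omega
  choose U hU1 hU2 using par_idem hp hi
  refine ⟨⟨n, hp, hi, rfl, fun s => by cases s <;> simp [n], fun ν d => ?_, U, hU1, hU2⟩⟩
  have hc : Nat.Coprime (n (.var ν (some d))) (n (.var ν none)) :=
    (Nat.coprime_primes (hp (.var ν (some d))) (hp (.var ν none))).2 fun e => by
      simpa using @hi (.var ν (some d)) (.var ν none) e
  obtain ⟨a, b, h⟩ := Nat.exists_add_mul_eq_of_gcd_dvd_of_mul_pred_le (n (.var ν (some d)))
    (n (.var ν none)) (n (.ctl ν)) (by rw [hc]; exact one_dvd _)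
    ((Nat.mul_le_mul ((Nat.pred_le _).trans (hv _ _)) ((Nat.pred_le _).trans (hv _ _))).trans
      (hg (.ctl ν)).2.le)
  exact ⟨a, b, h.symm⟩

theorem Par.C_ne (P : Par) : P.C ≠ 0 := by
  exact Finset.prod_ne_zero_iff.2 fun ν _ => Int.natCast_ne_zero.2 (P.prime _).ne_zero

theorem par_prod_ne (P : Par) (κ : Ix) (s : Finset Col) (h : ∀ ν ∈ s, κ ≠ .ctl ν) :
    ((∏ ν ∈ s, (P.n (.ctl ν) : ℤ) : ℤ) : ZMod (P.n κ)) ≠ 0 := by
  push_cast
  refine Finset.prod_ne_zero_iff.2 fun ν hν e => ?_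
  rw [ZMod.natCast_eq_zero_iff, Nat.prime_dvd_prime_iff_eq (P.prime _) (P.prime _)] at e
  exact h ν hν (P.inj e)

theorem par_eta_ne (P : Par) (κ : Ix) : P.η κ ≠ 0 := by
  rcases κ with ⟨ν, w⟩ | ν | _
  · exact par_prod_ne P _ _ fun _ _ => by simp
  · exact par_prod_ne P _ _ fun ν' h e => Finset.ne_of_mem_erase h (Ix.ctl.inj e).symm
  · exact par_prod_ne P _ _ fun _ _ => by simp

theorem Par.eta_gen (P : Par) (h : HH P.n) : ∃ t : ℤ, t • P.η = h := by
  refine ⟨∑ κ, P.U κ * ((h κ / P.η κ).val : ℤ), funext fun κ => ?_⟩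
  have h1 : ((P.U κ : ℤ) : ZMod (P.n κ)) = 1 := by
    have := (ZMod.intCast_zmod_eq_zero_iff_dvd _ _).2 (P.U_self κ)
    rwa [Int.cast_sub, Int.cast_one, sub_eq_zero] at this
  rw [Pi.smul_apply, zsmul_eq_mul, Int.cast_sum, Finset.sum_eq_single κ]
  · rw [Int.cast_mul, h1, one_mul, Int.cast_natCast, ZMod.natCast_zmod_val,
      div_mul_cancel₀ _ (par_eta_ne P κ)]
  · intro κ' _ hκ'
    rw [Int.cast_mul, (ZMod.intCast_zmod_eq_zero_iff_dvd _ _).2 (P.U_ne κ' κ hκ'), zero_mul]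
  · exact fun h => absurd (Finset.mem_univ κ) h

end Crest.Agent.R46
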