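import Crest.Agent.R46.Defs

/-!
# Row 46: from a rigid tile in `ℤ³` to the statement in `ℝ³`  (subtask Real)

`per_of_fully`: `L = H.index` (`AddSubgroup.nsmul_index_mem`).
`ae_of_tiling`: `B` = image of `A` under the cast; almost every `x` has no integer coordinate, and then
`x - a ∈ cubeThickening T ↔ ⌊x⌋ - a ∈ T`.
Let `B` be an a.e. tiling for `cubeThickening T`, `T` nonempty.
`countable_of_ae`: `b ↦ ⌊b⌋` is injective on `B`: two points with the same floor are at distance `< 1`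
in every coordinate, so the translates of one cube `t + [0,1]³` share a nonempty open box, which has
positive measure (`Measure.dense_of_ae` / `IsOpen.measure_pos`).
`ae_generic`: for almost every `θ` (countable intersections, translation invariance of `volume`):
every `θ + z` (`z ∈ ℤ³`) is covered exactly once and no `θ i - b i` (`b ∈ B`) is an integer.  Then
`rnd θ '' B`, `rnd θ b = -⌊θ - b⌋`, is a tiling of `ℤ³` (`z - rnd θ b = ⌊θ + z - b⌋`).
`int_diff`: if `b i - b' i = n + δ`, `0 < δ < 1`, choose generic `θ` with `θ i ∈ (b i, b i + 1 - δ)` and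
generic `θ'` with `θ' i ∈ (b i + 1 - δ, b i + 1)` (a set of full measure meets every nonempty open
set): `K ∣ n` and `K ∣ n + 1`.
`per_of_lattice`: `B` is nonempty, so the basis vectors are integral, `b k = cast (v k)`; with
`M = Matrix.of v`, `det M ≠ 0` (`Basis.det` / `Matrix.linearIndependent_rows_iff_isUnit`) and
`adjugate M * M = det M • 1` shows `|det M| • e_i ∈ span ℤ (range b)`; `rnd θ (cast w + b) = w + rnd θ b`.
-/

set_option autoImplicit false

namespace Crest.Agent.R46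

open Crest.CombinatoricsR.Tiling

open MeasureTheory

theorem real_mem {T : Finset Z3} {x : Fin 3 → ℝ} (hx : ∀ i, ∀ n : ℤ, x i ≠ n) :
    x ∈ cubeThickening T ↔ (fun i => ⌊x i⌋) ∈ T := by
  constructor
  · rintro ⟨z, hz, h⟩
    have : (fun i => ⌊x i⌋) = z := funext fun i => Int.floor_eq_iff.2
      ⟨(h i).1, lt_of_le_of_ne (h i).2 (by exact_mod_cast hx i (z i + 1))⟩
    rwa [this]
  · exact fun h => ⟨_, h, fun i => ⟨Int.floor_le _, (Int.lt_floor_add_one _).le⟩⟩

theorem real_ae_nonint (b : Fin 3 → ℝ) : ∀ᵐ x : Fin 3 → ℝ, ∀ i, ∀ n : ℤ, x i - b i ≠ n := by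
  refine ae_all_iff.2 fun i => ae_all_iff.2 fun n => ?_
  filter_upwards [Measure.ae_eval_ne (fun _ : Fin 3 => (volume : Measure ℝ)) i (b i + n)] with x hx
  exact fun h => hx (by linarith)

theorem real_exists {p : (Fin 3 → ℝ) → Prop} (h : ∀ᵐ x, p x) (l u : Fin 3 → ℝ)
    (hlu : ∀ i, l i < u i) : ∃ x, p x ∧ ∀ i, l i < x i ∧ x i < u i := by
  obtain ⟨x, hx, hx'⟩ := (Measure.dense_of_ae h).exists_mem_open
    (U := Set.univ.pi fun i => Set.Ioo (l i) (u i))
    (isOpen_set_pi Set.finite_univ fun _ _ => isOpen_Ioo)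
    (Set.univ_pi_nonempty_iff.2 fun i => Set.nonempty_Ioo.2 (hlu i))
  exact ⟨x, hx, fun i => hx' i (Set.mem_univ i)⟩

theorem per_of_fully {A : Set Z3} (h : IsFullyPeriodic A) : Per A := by
  obtain ⟨H, hH, h⟩ := h
  refine ⟨H.index, Nat.one_le_iff_ne_zero.2 hH.index_ne_zero, fun i a ha => ?_⟩
  rw [add_comm, natCast_zsmul]
  exact h _ (H.nsmul_index_mem _) a ha

theorem ae_of_tiling {T : Finset Z3} {A : Set Z3} (h : IsTilingBy T A) :
    ∃ B : Set (Fin 3 → ℝ), IsAETilingBy (cubeThickening T) B := by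
  refine ⟨(fun (a : Z3) i => (a i : ℝ)) '' A, ?_⟩
  filter_upwards [real_ae_nonint 0] with x hx
  have key : ∀ a : Z3, (x - fun i => (a i : ℝ)) ∈ cubeThickening T ↔ (fun i => ⌊x i⌋) - a ∈ T := by
    intro a
    rw [real_mem fun i n hn => hx i (n + a i) (by simp at hn ⊢; linarith)]
    simp only [Pi.sub_apply, Int.floor_sub_intCast]
    rfl
  obtain ⟨⟨a, t⟩, ⟨ha, ht, e⟩, hu⟩ := h fun i => ⌊x i⌋
  refine ⟨fun i => (a i : ℝ), ⟨⟨a, ha, rfl⟩, (key a).2 ?_⟩, ?_⟩
  · rw [← e, add_sub_cancel_left]; exact ht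
  · rintro _ ⟨⟨a', ha', rfl⟩, h'⟩
    have := hu (a', _) ⟨ha', (key a').1 h', add_sub_cancel _ _⟩
    obtain rfl : a' = a := (Prod.ext_iff.1 this).1
    rfl

theorem countable_of_ae {T : Finset Z3} (hT : T.Nonempty) {B : Set (Fin 3 → ℝ)}
    (h : IsAETilingBy (cubeThickening T) B) : B.Countable := by
  obtain ⟨t, ht⟩ := hT
  refine Set.countable_of_injective_of_countable_image (f := fun b i => ⌊b i⌋)
    (fun b hb b' hb' e => ?_) (Set.to_countable _)
  obtain ⟨x, ⟨a, -, hu⟩, hx⟩ := real_exists h (fun i => max (b i) (b' i) + t i)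
    (fun i => min (b i) (b' i) + t i + 1) fun i => by
      have := abs_lt.1 (Int.abs_sub_lt_one_of_floor_eq_floor (congrFun e i))
      rcases le_total (b i) (b' i) with h' | h' <;> simp only [max_def, min_def] <;>
        split_ifs <;> linarith
  refine (hu b ⟨hb, t, ht, fun i => ?_⟩).trans (hu b' ⟨hb', t, ht, fun i => ?_⟩).symm
  · have := hx i
    have := le_max_left (b i) (b' i)
    have := min_le_left (b i) (b' i)
    simp only [Pi.sub_apply]
    constructor <;> linarith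
  · have := hx i
    have := le_max_right (b i) (b' i)
    have := min_le_right (b i) (b' i)
    simp only [Pi.sub_apply]
    constructor <;> linarith

noncomputable def rnd (θ b : Fin 3 → ℝ) : Z3 := fun i => -⌊θ i - b i⌋

theorem ae_generic {T : Finset Z3} (hT : T.Nonempty) {B : Set (Fin 3 → ℝ)}
    (h : IsAETilingBy (cubeThickening T) B) : ∀ᵐ θ : Fin 3 → ℝ, IsTilingBy T (rnd θ '' B) := by
  have h1 : ∀ᵐ θ : Fin 3 → ℝ, ∀ z : Z3, ∃! a, a ∈ B ∧
      (θ + fun i => (z i : ℝ)) - a ∈ cubeThickening T := ae_all_iff.2 fun z =>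
    (measurePreserving_add_right volume fun i => (z i : ℝ)).quasiMeasurePreserving.ae h
  have h2 : ∀ᵐ θ : Fin 3 → ℝ, ∀ b ∈ B, ∀ i, ∀ n : ℤ, θ i - b i ≠ n :=
    (ae_ball_iff (countable_of_ae hT h)).2 fun b _ => real_ae_nonint b
  filter_upwards [h1, h2] with θ h1 h2 z
  have key : ∀ b ∈ B, ((θ + fun i => (z i : ℝ)) - b ∈ cubeThickening T ↔ z - rnd θ b ∈ T) := by
    intro b hb
    rw [real_mem fun i n hn => h2 b hb i (n - z i) (by simp at hn ⊢; linarith)]
    refine iff_of_eq (congrArg (· ∈ T) (funext fun i => ?_))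
    simp only [Pi.sub_apply, Pi.add_apply, rnd]
    rw [add_sub_right_comm, Int.floor_add_intCast]
    ring
  obtain ⟨a, ⟨ha, ht⟩, hu⟩ := h1 z
  refine ⟨(rnd θ a, z - rnd θ a), ⟨⟨a, ha, rfl⟩, (key a ha).1 ht, add_sub_cancel _ _⟩, ?_⟩
  rintro ⟨_, t⟩ ⟨⟨b, hb, rfl⟩, ht', e⟩
  obtain rfl : t = z - rnd θ b := eq_sub_of_add_eq' e
  rw [hu b ⟨hb, (key b hb).2 ht'⟩]

theorem int_diff {T : Finset Z3} (hT : T.Nonempty) (hr : ∀ i, Rigid i T) {B : Set (Fin 3 → ℝ)}
    (h : IsAETilingBy (cubeThickening T) B) {b b' : Fin 3 → ℝ} (hb : b ∈ B) (hb' : b' ∈ B)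
    (i : Fin 3) : ∃ n : ℤ, b i - b' i = n := by
  refine ⟨⌊b i - b' i⌋, ?_⟩
  by_contra hne
  obtain ⟨n, hn⟩ : ∃ n, n = ⌊b i - b' i⌋ := ⟨_, rfl⟩
  have h1 : (n : ℝ) < b i - b' i := hn ▸ lt_of_le_of_ne (Int.floor_le _) (Ne.symm hne)
  have h2 : b i - b' i < n + 1 := hn ▸ Int.lt_floor_add_one _
  obtain ⟨K, hK, hr⟩ := hr i
  obtain ⟨θ, hθ, hx⟩ := real_exists (ae_generic hT h) (fun _ => b i) (fun _ => b' i + n + 1)
    fun _ => by linarith
  obtain ⟨θ', hθ', hx'⟩ := real_exists (ae_generic hT h) (fun _ => b' i + n + 1) (fun _ => b i + 1)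
    fun _ => by linarith
  have k1 := hr _ hθ _ ⟨b, hb, rfl⟩ _ ⟨b', hb', rfl⟩
  have k2 := hr _ hθ' _ ⟨b, hb, rfl⟩ _ ⟨b', hb', rfl⟩
  obtain ⟨a1, a2⟩ := hx i
  obtain ⟨a3, a4⟩ := hx' i
  have e1 : ⌊θ i - b i⌋ = 0 := Int.floor_eq_iff.2 ⟨by push_cast; linarith, by push_cast; linarith⟩
  have e2 : ⌊θ i - b' i⌋ = n := Int.floor_eq_iff.2 ⟨by linarith, by linarith⟩
  have e3 : ⌊θ' i - b i⌋ = 0 := Int.floor_eq_iff.2 ⟨by push_cast; linarith, by push_cast; linarith⟩
  have e4 : ⌊θ' i - b' i⌋ = n + 1 :=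
    Int.floor_eq_iff.2 ⟨by push_cast; linarith, by push_cast; linarith⟩
  simp only [rnd, e1, e2, e3, e4, neg_zero, sub_neg_eq_add, zero_add] at k1 k2
  have := Int.le_of_dvd one_pos ((Int.dvd_add_right k1).1 k2)
  omega

theorem per_of_lattice {T : Finset Z3} (hT : T.Nonempty) (hr : ∀ i, Rigid i T)
    {B : Set (Fin 3 → ℝ)} (h : IsAETilingBy (cubeThickening T) B) (hp : IsLatticePeriodic B) :
    ∃ A, IsTilingBy T A ∧ Per A := by
  obtain ⟨b, hb⟩ := hp
  obtain ⟨x, a, ⟨ha, -⟩, -⟩ := h.exists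
  have h1 : ∀ k i, ∃ n : ℤ, b k i = n := fun k i => by
    simpa using int_diff hT hr h (hb _ (Submodule.subset_span ⟨k, rfl⟩) a ha) ha i
  choose v hv using h1
  obtain ⟨M, hM⟩ : ∃ M : Matrix (Fin 3) (Fin 3) ℤ, M = Matrix.of v := ⟨_, rfl⟩
  have hMv : ∀ k i, b k i = M k i := fun k i => by rw [hM]; exact hv k i
  have hdet : M.det ≠ 0 := by
    have h2 : IsUnit (M.map (Int.castRingHom ℝ)) := by
      rw [← Matrix.linearIndependent_rows_iff_isUnit]
      have : (M.map (Int.castRingHom ℝ)).row = b := funext fun k => funext fun i => (hMv k i).symm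
      rw [this]
      exact b.linearIndependent
    have h3 := ((Matrix.isUnit_iff_isUnit_det _).1 h2).ne_zero
    intro h0
    apply h3
    rw [← RingHom.mapMatrix_apply, ← RingHom.map_det, h0, map_zero]
  have h2 : ∀ i, (fun j => (((M.det.natAbs : ℤ) • ev i : Z3) j : ℝ)) ∈
      Submodule.span ℤ (Set.range b) := fun i => by
    have : (fun j => (((M.det.natAbs : ℤ) • ev i : Z3) j : ℝ)) =
        M.det.sign • ∑ k, M.adjugate i k • b k := by
      funext j
      have h3 := congrFun (congrFun (Matrix.adjugate_mul M) i) j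
      rw [Matrix.mul_apply] at h3
      have h4 : ((M.det.natAbs : ℤ) • ev i : Z3) j = M.det.sign * ∑ k, M.adjugate i k * M k j := by
        rw [h3, ← Int.sign_mul_self_eq_natAbs]
        simp [ev, Pi.single_apply, Matrix.one_apply, eq_comm]
      rw [h4, Pi.smul_apply, Finset.sum_apply, zsmul_eq_mul]
      push_cast
      congr 1
      exact Finset.sum_congr rfl fun k _ => by rw [Pi.smul_apply, zsmul_eq_mul, hMv]
    rw [this]
    exact Submodule.smul_mem _ _ (Submodule.sum_mem _ fun k _ =>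
      Submodule.smul_mem _ _ (Submodule.subset_span ⟨k, rfl⟩))
  obtain ⟨θ, hθ⟩ := (ae_generic hT h).exists
  refine ⟨_, hθ, M.det.natAbs, Int.natAbs_pos.2 hdet, ?_⟩
  rintro i _ ⟨c, hc, rfl⟩
  refine ⟨_, hb _ (h2 i) c hc, funext fun j => ?_⟩
  simp only [rnd, Pi.add_apply]
  rw [add_comm, ← sub_sub, Int.floor_sub_intCast]
  ring

theorem final_of_rigid {T : Finset Z3} (h : Good [T]) (hr : ∀ i, Rigid i T) :
    T.Nonempty ∧ (∃ A : Set (Fin 3 → ℤ), IsTilingBy T A) ∧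
      (∀ A : Set (Fin 3 → ℤ), IsTilingBy T A → ¬ IsFullyPeriodic A) ∧
      (∃ B : Set (Fin 3 → ℝ), IsAETilingBy (cubeThickening T) B) ∧
      ∀ B : Set (Fin 3 → ℝ), IsAETilingBy (cubeThickening T) B → ¬ IsLatticePeriodic B := by
  obtain ⟨⟨A, hA⟩, hno⟩ := h
  have hA : IsTilingBy T A := hA T (by simp)
  have hno : ∀ A, IsTilingBy T A → ¬ Per A := fun A h => hno A (by simpa using h)
  have hT : T.Nonempty := by
    obtain ⟨p, hp, -⟩ := hA 0
    exact ⟨p.2, hp.2.1⟩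
  refine ⟨hT, ⟨A, hA⟩, fun A h hp => hno A h (per_of_fully hp), ae_of_tiling hA, fun B h hp => ?_⟩
  obtain ⟨A, hA, hp⟩ := per_of_lattice hT hr h hp
  exact hno A hA hp

end Crest.Agent.R46
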