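import Crest.Agent.R46.Tiles
import Crest.Agent.R46.Sudoku

/-!
# Row 46: a solution of the system gives a Sudoku solution  (subtask Sound)

`lat`: `(a, b) = (b/p) (p, p) + ((a-b)/(p c)) (p c, 0)` (`p`, `c` distinct primes); invariance under a
vector gives invariance under its integer multiples.  All later invariances come from `lat`, `lat_sp`
and `U_self`, `U_ne`.
`exists_slope`: otherwise choose for every `w` a `t w` where the increment is not one; apply `cyc_sound`
for `or` at `g + ∑ w, (t w * U w) • hd ν` and remove the shifts of the other variables by `lat`.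
`exists_slope_digit`: if no row `r` has a digit of slope one then the helper `none` has slope one in all
rows, contradicting `tt_not_all` (`tc ν none`).
`present_hd`: `hd = U v • hd + U c • hd + (1 - U v - U c) • hd`, the last vector is in the lattice
(both directions; then induction on `k`).
`active`: `tt_active` at the base point `g + (r * U c) • hd ν`; if all increments in the direction
`U c • ev 2` vanished then `α (g + (r * U c) • hd ν) v = α (g - (r * U c) • ev 2) v = α g v` for all `r`.
`nand_sound`: choose `r t` from `active`, apply `cyc_sound` at `g + ∑ t, (r t * U (ctl (col t))) • ev 2`.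
`sound`: `F n m` = `Classical.epsilon` of the digits present at `m • ev 0` in column `inl n` (periodic in
`m` because the predicates agree); the point `i • ev 0 + j • ev 1` equals `(j n + i) • ev 0 + j • hd (inl n)`.
For `s`: `tt_not_all` (`ts`, `n v ∈ {2, 3}`, `n top = 13`) at `g = 0` gives `j` such that the special
variable does not have slope one at `j • ev 1`; a present digit `d` of column `inr s` at this point is
nonzero (`lat_sp` moves a slope back from row `r`), so `nand2` gives `RuleS s (line F 0 j)`.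
-/

set_option autoImplicit false

namespace Crest.Agent.R46

open Crest.CombinatoricsR.Tiling

variable {P : Par} {α : Z3 → HH P.n}

theorem Sound_zs {v : Ix} {σ : Z3} (h : (inv P.n v σ).Ok α) (k : ℤ) (g : Z3) :
    α (g + k • σ) v = α g v :=
  Function.Periodic.zsmul (f := fun g => α g v) (inv_iff.1 h) k g

theorem lat (h : Cond P α) (ν : Col) (w : Option Dg) {a b : ℤ} (ha : (P.n (.var ν w) : ℤ) ∣ a)
    (hb : (P.n (.var ν w) : ℤ) ∣ b) (hc : (P.n (.ctl ν) : ℤ) ∣ a - b) (g : Z3) :
    α (g + a • hd ν + b • ev 2) (.var ν w) = α g (.var ν w) := by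
  obtain ⟨m, hm⟩ := (Nat.isCoprime_iff_coprime.2 ((Nat.coprime_primes (P.prime _) (P.prime _)).2
    fun e => by cases P.inj e)).mul_dvd (dvd_sub ha hb) hc
  obtain ⟨k, rfl⟩ := hb
  obtain rfl := eq_add_of_sub_eq hm
  rw [← Sound_zs (h.inv1 ν w) k g, ← Sound_zs (h.inv2 ν w) m (g + _)]
  congr 1
  module

theorem lat_sp (h : Cond P α) {ν : Col} {w : Option Dg} (hs : Sp ν w) {a : ℤ}
    (ha : (P.n (.var ν w) : ℤ) ∣ a) (g : Z3) : α (g + a • hd ν) (.var ν w) = α g (.var ν w) := by
  obtain ⟨k, rfl⟩ := ha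
  rw [← Sound_zs (h.inv3 ν w hs) k g]
  congr 1
  module

def Slope (P : Par) (α : Z3 → HH P.n) (ν : Col) (w : Option Dg) (g : Z3) : Prop :=
  ∀ t : ℤ, α (g + (t + 1) • (P.U (.var ν w) • hd ν)) (.var ν w) =
    α (g + t • (P.U (.var ν w) • hd ν)) (.var ν w) + 1

def Present (P : Par) (α : Z3 → HH P.n) (ν : Col) (d : Dg) (g : Z3) : Prop :=
  ∃ r : ℤ, Slope P α ν (some d) (g + r • (P.U (.ctl ν) • hd ν))

theorem Sound_hd (h : Cond P α) (ν : Col) (w : Option Dg) {a : ℤ} (ha : (P.n (.var ν w) : ℤ) ∣ a)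
    (hc : (P.n (.ctl ν) : ℤ) ∣ a) (g : Z3) : α (g + a • hd ν) (.var ν w) = α g (.var ν w) := by
  simpa using lat h ν w ha (dvd_zero _) (by simpa using hc) g

theorem Sound_ev (h : Cond P α) (ν : Col) (w : Option Dg) {b : ℤ} (hb : (P.n (.var ν w) : ℤ) ∣ b)
    (hc : (P.n (.ctl ν) : ℤ) ∣ b) (g : Z3) : α (g + b • ev 2) (.var ν w) = α g (.var ν w) := by
  simpa using lat h ν w (dvd_zero _) hb (by simpa using hc) g

theorem Sound_ndvd (P : Par) {κ κ' : Ix} (h : κ ≠ κ') : ¬ P.n κ ∣ P.n κ' := fun e =>
  h (P.inj ((Nat.prime_dvd_prime_iff_eq (P.prime _) (P.prime _)).1 e))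

theorem exists_slope (h : Cond P α) (ν : Col) (g : Z3) : ∃ w, Slope P α ν w g := by
  classical
  by_contra hc
  simp only [Slope, not_exists, not_forall] at hc
  choose t ht using hc
  have key : ∀ (t : Option Dg → ℤ) w, α (g + (∑ w, t w * P.U (.var ν w)) • hd ν) (.var ν w) =
      α (g + t w • (P.U (.var ν w) • hd ν)) (.var ν w) := fun t w => by
    rw [← Finset.add_sum_erase _ _ (Finset.mem_univ w), add_smul, ← add_assoc, Sound_hd h, smul_smul]
    · exact Finset.dvd_sum fun w' hw' => (P.U_ne _ _ fun e => by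
        cases e; simp at hw').mul_left _
    · exact Finset.dvd_sum fun w' _ => (P.U_ne _ _ fun e => by cases e).mul_left _
  obtain ⟨w, hw⟩ := cyc_sound (fun _ _ e => by cases e; rfl) (h.or ν)
    (g + (∑ w, t w * P.U (.var ν w)) • hd ν)
  refine ht w ?_
  rw [Int.cast_one] at hw
  rw [← key t w, ← key (fun w => t w + 1) w, ← hw]
  simp only [add_mul, one_mul, Finset.sum_add_distrib, add_smul, Finset.sum_smul, add_assoc]

theorem exists_present (h : Cond P α) (ν : Col) (g : Z3) : ∃ d, Present P α ν d g := by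
  by_contra hc
  refine tt_not_all (fun e => by cases e) (h.tc ν none fun e => by cases e.2)
    (Sound_ndvd P fun e => by cases e) g fun r => ?_
  obtain ⟨w, hw⟩ := exists_slope h ν (g + r • (P.U (.ctl ν) • hd ν))
  cases w with
  | none => exact hw
  | some d => exact absurd ⟨d, r, hw⟩ hc

theorem present_hd (h : Cond P α) {ν : Col} {d : Dg} {g : Z3} (hp : Present P α ν d g) (k : ℤ) :
    Present P α ν d (g + k • hd ν) := by
  obtain ⟨r, hr⟩ := hp
  have key : ∀ t : ℤ, α (g + k • hd ν + (r - k) • (P.U (.ctl ν) • hd ν) +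
      t • (P.U (.var ν (some d)) • hd ν)) (.var ν (some d)) =
      α (g + r • (P.U (.ctl ν) • hd ν) + (t + k) • (P.U (.var ν (some d)) • hd ν)) (.var ν (some d)) := by
    intro t
    rw [← Sound_hd h ν (some d) (a := k * -((P.U (.var ν (some d)) - 1) + P.U (.ctl ν))) ?_ ?_ (g + r • _ + _)]
    · congr 1
      module
    · exact (dvd_neg.2 (dvd_add (P.U_self _) (P.U_ne _ _ fun e => by cases e))).mul_left _
    · rw [sub_add_eq_add_sub, add_sub_assoc]
      exact (dvd_neg.2 (dvd_add (P.U_ne _ _ fun e => by cases e) (P.U_self _))).mul_left _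
  exact ⟨r - k, fun t => by rw [key, key, add_right_comm t, hr]⟩

theorem active (h : Cond P α) {ν : Col} {d : Dg} (hs : ¬ Sp ν (some d)) {g : Z3}
    (hp : Present P α ν d g) : ∃ r : ℤ, α (g + (r + 1) • (P.U (.ctl ν) • ev 2)) (.var ν (some d)) ≠
      α (g + r • (P.U (.ctl ν) • ev 2)) (.var ν (some d)) := by
  by_contra hc
  simp only [not_exists, not_not] at hc
  obtain ⟨r, hr⟩ := hp
  have h1 : ∀ k : ℤ, α (g + k • (P.U (.ctl ν) • ev 2)) (.var ν (some d)) = α g (.var ν (some d)) := by
    intro k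
    induction k using Int.induction_on with
    | zero => simp
    | succ k ih => rw [hc, ih]
    | pred k ih => rw [← hc, sub_add_cancel, ih]
  have h2 : ∀ k : ℤ, α (g + k • (P.U (.ctl ν) • hd ν)) (.var ν (some d)) = α g (.var ν (some d)) := by
    intro k
    have hk : (P.n (.var ν (some d)) : ℤ) ∣ k * P.U (.ctl ν) := (P.U_ne _ _ fun e => by cases e).mul_left _
    rw [← h1 (-k), ← lat h ν (some d) hk hk (by simp) (g + -k • _)]
    congr 1
    module
  refine tt_active (fun e => by cases e) (h.tc ν _ hs) (P.prime _).two_le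
    (g + r • (P.U (.ctl ν) • hd ν)) (by simpa using hr 0) fun k => ?_
  rw [add_assoc, ← add_smul, h2, h2]

theorem nand_sound (h : Cond P α) {ι : Type} [Fintype ι] [Nonempty ι] {col : ι → Col}
    (hcol : Function.Injective col) {d : ι → Dg} (hs : ∀ t, ¬ Sp (col t) (some (d t)))
    (hn : (nand P col d).Ok α) (g : Z3) : ¬ ∀ t, Present P α (col t) (d t) g := by
  classical
  intro hp
  choose r hr using fun t => active h (hs t) (hp t)
  have key : ∀ (r : ι → ℤ) t, α (g + (∑ t, r t * P.U (.ctl (col t))) • ev 2) (.var (col t) (some (d t))) =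
      α (g + r t • (P.U (.ctl (col t)) • ev 2)) (.var (col t) (some (d t))) := fun r t => by
    rw [← Finset.add_sum_erase _ _ (Finset.mem_univ t), add_smul, ← add_assoc, Sound_ev h, smul_smul]
    · exact Finset.dvd_sum fun t' _ => (P.U_ne _ _ fun e => by cases e).mul_left _
    · exact Finset.dvd_sum fun t' ht' => (P.U_ne _ _ fun e =>
        (Finset.mem_erase.1 ht').1 (hcol (Ix.ctl.inj e))).mul_left _
  obtain ⟨t, ht⟩ := cyc_sound (fun _ _ e => hcol (Ix.var.inj e).1) hn
    (g + (∑ t, r t * P.U (.ctl (col t))) • ev 2)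
  refine hr t ?_
  rw [Int.cast_zero, add_zero] at ht
  rw [← key r t, ← key (fun t => r t + 1) t, ← ht]
  simp only [add_mul, one_mul, Finset.sum_add_distrib, add_smul, Finset.sum_smul, add_assoc]

theorem sound (h : Cond P α) {L : ℕ} (hL : 1 ≤ L) (hper : ∀ g, α (g + (L : ℤ) • ev 0) = α g) :
    False := by
  let F : Fin 39 → ℤ → Dg := fun n m => Classical.epsilon fun d => Present P α (.inl n) d (m • ev 0)
  have hF : ∀ (i j : ℤ) n, Present P α (.inl n) (line F i j n) (i • ev 0 + j • ev 1) := fun i j n => by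
    have := present_hd h (Classical.epsilon_spec
      (exists_present h (.inl n) ((j * ((n : ℕ) : ℤ) + i) • ev 0))) j
    rwa [show (j * ((n : ℕ) : ℤ) + i) • ev 0 + j • hd (.inl n) = i • ev 0 + j • ev 1 by
      simp only [hd]; module] at this
  refine sudoku (F := F) (fun i j => ?_) (fun s => ?_) hL fun n m => ?_
  · by_contra hc
    exact nand_sound h Sum.inl_injective (fun t e => by obtain ⟨⟨_, e⟩, -⟩ := e; cases e)
      (h.nand1 _ hc) _ (hF i j)
  · have hs : Sp (.inr s) (some 0) := ⟨⟨s, rfl⟩, rfl⟩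
    obtain ⟨j, hj⟩ := not_forall.1 (tt_not_all (fun e => by cases e) (h.ts _ _ hs)
      (Sound_ndvd P fun e => by cases e) ((0 : ℤ) • ev 0))
    obtain ⟨d, hd'⟩ := exists_present h (.inr s) ((0 : ℤ) • ev 0 + j • ev 1)
    have hd0 : d ≠ 0 := by
      rintro rfl
      obtain ⟨r, hr⟩ := hd'
      refine hj fun t => ?_
      have := hr t
      have hk : (P.n (.var (.inr s) (some 0)) : ℤ) ∣ r * P.U (.ctl (.inr s)) :=
        (P.U_ne _ _ fun e => by cases e).mul_left _
      rwa [add_right_comm _ (r • _), add_right_comm _ (r • _), smul_smul r, lat_sp h hs hk,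
        lat_sp h hs hk] at this
    refine ⟨0, j, by_contra fun hc => nand_sound h ?_ ?_ (h.nand2 s d _ hd0 hc)
      ((0 : ℤ) • ev 0 + j • ev 1) ?_⟩
    · rintro (_ | a) (_ | b) e <;> cases e <;> rfl
    · rintro (_ | a) ⟨⟨_, e⟩, e'⟩
      · exact hd0 (Option.some.inj e')
      · cases e
    · rintro (_ | a)
      exacts [hd', hF 0 j a]
  · simp only [F, Present, Slope, add_smul, add_right_comm _ ((L : ℤ) • ev 0), hper]

end Crest.Agent.R46
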