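import Crest.Agent.R46.Defs

/-!
# Row 46: structure of Sudoku solutions  (subtask Struct)

`aff_eq`: an affine function that is not identically zero has at most one zero among four consecutive
residues; so at two of the four both functions are nonzero and agree.
`base`: rows `m = 0, …, 11` (lines `line F m 0`) in three blocks `4t, …, 4t+3`, with affine data
`(a m, b m)`.  Diagonal `i ∈ [0,13)`: `line F (-i) 1`, cells `(i + m, m)`; antidiagonal `i`:
`line F (i + 11) (-1)`, cells `(i + 11 - m, m)`.  A diagonal is good for a block if at its four cells the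
row functions and the function of the diagonal are nonzero.  For a block at most 4 values of `i` are
spoiled by the rows (one per row); the function of a diagonal has at most one zero on its 12 cells,
so it spoils at most one block.  Two blocks with `≤ 1` good diagonals each would give `13 ≤ 4+4+1+1`.
So some block has two good diagonals and two good antidiagonals.  On a good diagonal the four values
`a m * (i + m) + b m` are affine in `m` (second differences vanish); this expression is affine in `i`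
and vanishes for two residues `i`, hence identically; the same for antidiagonals; subtracting,
`4 (a (m+2) - a (m+1)) = 0`, so all four `a m` agree and `b m` is affine in `m`.
`struct`: induction up and down over blocks of four consecutive rows: for a cell `(n, m₀+4)` with
`Φ ≠ 0` use the diagonal (if `4 ≤ n`) or the antidiagonal through it, `aff_eq` on the four cells in the
rows `m₀, …, m₀+3`.
-/

set_option autoImplicit false

namespace Crest.Agent.R46

open Crest.CombinatoricsR.Tiling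

/-- the line condition without the non-constancy clause -/
def Rule1 (ω : Fin 39 → Dg) : Prop := ∃ a b : Dg, ¬ (a = 0 ∧ b = 0) ∧ Aff a b ω

instance struct_prime : Fact (Nat.Prime 13) := ⟨by norm_num⟩

theorem struct_zero {a b x y : Dg} (h : ¬ (a = 0 ∧ b = 0)) (hx : a * x + b = 0)
    (hy : a * y + b = 0) : x = y := by
  by_contra hne
  have h1 : a * (x - y) = 0 := by linear_combination hx - hy
  have h2 : a = 0 := (mul_eq_zero.1 h1).resolve_right (sub_ne_zero.2 hne)
  exact h ⟨h2, by rw [h2] at hx; simpa using hx⟩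

theorem struct_two {a b a' b' x y : Dg} (hne : x ≠ y) (hx : a * x + b = a' * x + b')
    (hy : a * y + b = a' * y + b') : a = a' ∧ b = b' := by
  have h1 : (a - a') * (x - y) = 0 := by linear_combination hx - hy
  have h2 : a = a' := sub_eq_zero.1 ((mul_eq_zero.1 h1).resolve_right (sub_ne_zero.2 hne))
  exact ⟨h2, by rw [h2] at hx; exact add_left_cancel hx⟩

theorem aff_eq {a b a' b' x : Dg} (h : ¬ (a = 0 ∧ b = 0)) (h' : ¬ (a' = 0 ∧ b' = 0))
    (e : ∀ t : Dg, (t = 0 ∨ t = 1 ∨ t = 2 ∨ t = 3) → a * (x + t) + b ≠ 0 → a' * (x + t) + b' ≠ 0 →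
      a * (x + t) + b = a' * (x + t) + b') : a = a' ∧ b = b' := by
  by_contra hc
  have k1 : ∀ s t : Dg, s ≠ t → a * (x + s) + b = 0 → a * (x + t) + b = 0 → False :=
    fun s t hst hs ht => hst (add_left_cancel (struct_zero h hs ht))
  have k2 : ∀ s t : Dg, s ≠ t → a' * (x + s) + b' = 0 → a' * (x + t) + b' = 0 → False :=
    fun s t hst hs ht => hst (add_left_cancel (struct_zero h' hs ht))
  have k3 : ∀ s t : Dg, s ≠ t → (s = 0 ∨ s = 1 ∨ s = 2 ∨ s = 3) → (t = 0 ∨ t = 1 ∨ t = 2 ∨ t = 3) →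
      (a * (x + s) + b = 0 ∨ a' * (x + s) + b' = 0) ∨ a * (x + t) + b = 0 ∨ a' * (x + t) + b' = 0 := by
    intro s t hst hs ht
    by_contra hn
    simp only [not_or] at hn
    exact hc (struct_two (fun e => hst (add_left_cancel e)) (e s hs hn.1.1 hn.1.2)
      (e t ht hn.2.1 hn.2.2))
  have m : ∀ s t : Dg, s ≠ t → ∀ u : Dg, s ≠ u → t ≠ u →
      (a * (x + s) + b = 0 ∨ a' * (x + s) + b' = 0) → (a * (x + t) + b = 0 ∨ a' * (x + t) + b' = 0) →
      (a * (x + u) + b = 0 ∨ a' * (x + u) + b' = 0) → False := by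
    rintro s t h1 u h2 h3 (hs | hs) (ht | ht) (hu | hu)
    exacts [k1 _ _ h1 hs ht, k1 _ _ h1 hs ht, k1 _ _ h2 hs hu, k2 _ _ h3 ht hu, k1 _ _ h3 ht hu,
      k2 _ _ h2 hs hu, k2 _ _ h1 hs ht, k2 _ _ h1 hs ht]
  have d01 : (0 : Dg) ≠ 1 := by decide
  have d02 : (0 : Dg) ≠ 2 := by decide
  have d03 : (0 : Dg) ≠ 3 := by decide
  have d12 : (1 : Dg) ≠ 2 := by decide
  have d13 : (1 : Dg) ≠ 3 := by decide
  have d23 : (2 : Dg) ≠ 3 := by decide
  have i0 : (0 : Dg) = 0 ∨ (0 : Dg) = 1 ∨ (0 : Dg) = 2 ∨ (0 : Dg) = 3 := Or.inl rfl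
  have i1 : (1 : Dg) = 0 ∨ (1 : Dg) = 1 ∨ (1 : Dg) = 2 ∨ (1 : Dg) = 3 := Or.inr (Or.inl rfl)
  have i2 : (2 : Dg) = 0 ∨ (2 : Dg) = 1 ∨ (2 : Dg) = 2 ∨ (2 : Dg) = 3 :=
    Or.inr (Or.inr (Or.inl rfl))
  have i3 : (3 : Dg) = 0 ∨ (3 : Dg) = 1 ∨ (3 : Dg) = 2 ∨ (3 : Dg) = 3 :=
    Or.inr (Or.inr (Or.inr rfl))
  rcases k3 0 1 d01 i0 i1 with p | p <;> rcases k3 2 3 d23 i2 i3 with q | q
  · rcases k3 1 3 d13 i1 i3 with r | r
    exacts [m _ _ d01 _ d02 d12 p r q, m _ _ d02 _ d03 d23 p q r]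
  · rcases k3 1 2 d12 i1 i2 with r | r
    exacts [m _ _ d01 _ d03 d13 p r q, m _ _ d02 _ d03 d23 p r q]
  · rcases k3 0 3 d03 i0 i3 with r | r
    exacts [m _ _ d01 _ d02 d12 r p q, m _ _ d12 _ d13 d23 p q r]
  · rcases k3 0 2 d02 i0 i2 with r | r
    exacts [m _ _ d01 _ d03 d13 r p q, m _ _ d12 _ d13 d23 p r q]

/-- `F` agrees with `A n + B m + C` on row `m` off its zeros -/
def RowOK (F : Fin 39 → ℤ → Dg) (A B C : Dg) (m : ℤ) : Prop :=
  Aff A (B * (m : Dg) + C) fun n => F n m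

/-- the column with integer index `k` -/
def structCl (k : ℤ) : Fin 39 := ⟨k.toNat % 39, Nat.mod_lt _ (by norm_num)⟩

theorem struct_cl_int {k : ℤ} (h0 : 0 ≤ k) (h1 : k < 39) : ((structCl k : ℕ) : ℤ) = k := by
  simp only [structCl]; omega

theorem struct_cl_dg {k : ℤ} (h0 : 0 ≤ k) (h1 : k < 39) : ((structCl k : ℕ) : Dg) = (k : Dg) := by
  rw [← Int.cast_natCast, struct_cl_int h0 h1]

theorem struct_aff {a b : Dg} {ω : Fin 39 → Dg} (h : Aff a b ω) {k : ℤ} (h0 : 0 ≤ k) (h1 : k < 39)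
    (hne : a * (k : Dg) + b ≠ 0) : ω (structCl k) = a * (k : Dg) + b := by
  have := h (structCl k)
  rw [struct_cl_dg h0 h1] at this
  exact this hne

theorem struct_line {F : Fin 39 → ℤ → Dg} {a b : Dg} {i j : ℤ} (h : Aff a b (line F i j)) {k : ℤ}
    (h0 : 0 ≤ k) (h1 : k < 39) (hne : a * (k : Dg) + b ≠ 0) :
    F (structCl k) (j * k + i) = a * (k : Dg) + b := by
  have := struct_aff h h0 h1 hne
  rwa [line, struct_cl_int h0 h1] at this

/-- the values of the four rows from `m` on are affine along the line of slope `ε` -/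
def StructSec (a b : ℤ → Dg) (ε m : ℤ) (x : Dg) : Prop :=
  ∃ c d : Dg, ∀ r : ℤ, 0 ≤ r → r < 4 →
    a (m + r) * (x + ε * (m + r)) + b (m + r) = c * (x + ε * (m + r)) + d

theorem struct_dir {F : Fin 39 → ℤ → Dg} (hR : ∀ i j, Rule1 (line F i j)) {a b : ℤ → Dg}
    (hab : ∀ m, ¬ (a m = 0 ∧ b m = 0)) (hrow : ∀ m, Aff (a m) (b m) fun n => F n m) {ε c : ℤ}
    (hε : (ε = 1 ∧ c = 0) ∨ (ε = -1 ∧ c = 11)) (u : Bool → ℤ) (hu : ∀ β, u β = 0 ∨ u β = 4 ∨ u β = 8)
    (hne : u false ≠ u true) :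
    ∃ β, ∃ x y : Dg, x ≠ y ∧ StructSec a b ε (u β) x ∧ StructSec a b ε (u β) y := by
  by_contra hc
  have hinj : ∀ i j : Fin 13, (((i : ℕ) : ℤ) : Dg) = (((j : ℕ) : ℤ) : Dg) → i = j := by decide
  have key : ∀ i : Fin 13, ∃ k : Bool × Option (Fin 4), k.2.elim
      (StructSec a b ε (u k.1) (((i : ℕ) + c : ℤ) : Dg)) fun r =>
        a (u k.1 + (r : ℕ)) * (((i : ℕ) + c + ε * (u k.1 + (r : ℕ)) : ℤ) : Dg) +
          b (u k.1 + (r : ℕ)) = 0 := by
    intro i
    by_contra hn
    rw [not_exists] at hn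
    obtain ⟨a', b', h', ha'⟩ := hR (-ε * ((i : ℕ) + c)) ε
    have hi := i.2
    have h1 : ∀ β, ∃ r : ℤ, 0 ≤ r ∧ r < 4 ∧
        a' * (((i : ℕ) + c + ε * (u β + r) : ℤ) : Dg) + b' = 0 := by
      intro β
      by_contra h2
      refine hn (β, none) ⟨a', b', fun r r0 r4 => ?_⟩
      have h3 : a' * (((i : ℕ) + c + ε * (u β + r) : ℤ) : Dg) + b' ≠ 0 := fun e => h2 ⟨r, r0, r4, e⟩
      have h4 := hn (β, some ⟨r.toNat, by omega⟩)
      have h5 : ((r.toNat : ℕ) : ℤ) = r := Int.toNat_of_nonneg r0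
      simp only [Option.elim, h5] at h4
      have k0 : 0 ≤ ((i : ℕ) : ℤ) + c + ε * (u β + r) := by
        have := hu β
        rcases hε with ⟨rfl, rfl⟩ | ⟨rfl, rfl⟩ <;> omega
      have k1 : ((i : ℕ) : ℤ) + c + ε * (u β + r) < 39 := by
        have := hu β
        rcases hε with ⟨rfl, rfl⟩ | ⟨rfl, rfl⟩ <;> omega
      have e1 := struct_line ha' k0 k1 h3
      have e2 := struct_aff (hrow (u β + r)) k0 k1 h4
      have e3 : ε * (((i : ℕ) : ℤ) + c + ε * (u β + r)) + -ε * ((i : ℕ) + c) = u β + r := by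
        rcases hε with ⟨rfl, rfl⟩ | ⟨rfl, rfl⟩ <;> ring
      rw [e3] at e1
      have e4 := e2.symm.trans e1
      push_cast at e4 ⊢
      exact e4
    obtain ⟨r, r0, r4, e⟩ := h1 false
    obtain ⟨r', r0', r4', e'⟩ := h1 true
    have h2 := (ZMod.intCast_eq_intCast_iff_dvd_sub _ _ 13).1 (struct_zero h' e e')
    have := hu false
    have := hu true
    rcases hε with ⟨rfl, rfl⟩ | ⟨rfl, rfl⟩ <;> omega
  choose k hk using key
  have : Function.Injective k := by
    intro i j e
    have h1 := hk i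
    have h2 := hk j
    rw [← e] at h2
    rcases hki : k i with ⟨β, _ | r⟩
    · rw [hki] at h1 h2
      by_contra hij
      refine hc ⟨β, _, _, fun e => hij (hinj i j ?_), h1, h2⟩
      push_cast at e ⊢
      exact add_right_cancel e
    · rw [hki] at h1 h2
      have := struct_zero (hab _) h1 h2
      refine hinj i j ?_
      push_cast at this ⊢
      exact add_right_cancel (add_right_cancel this)
  have := Fintype.card_le_of_injective k this
  simp at this

theorem struct_alg {a b : ℤ → Dg} {m : ℤ} {x y x' y' : Dg} (h : x ≠ y) (h' : x' ≠ y')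
    (hx : StructSec a b 1 m x) (hy : StructSec a b 1 m y) (hx' : StructSec a b (-1) m x')
    (hy' : StructSec a b (-1) m y') :
    a (m + 1) = a m ∧ a (m + 2) = a m ∧ a (m + 3) = a m ∧ b (m + 2) = 2 * b (m + 1) - b m ∧
      b (m + 3) = 3 * b (m + 1) - 2 * b m := by
  have key : ∀ {ε : ℤ} {x : Dg}, StructSec a b ε m x →
      (a m - 2 * a (m + 1) + a (m + 2)) * (x + ε * m) +
        (ε * (2 * a (m + 2) - 2 * a (m + 1)) + (b m - 2 * b (m + 1) + b (m + 2))) =
          0 * (x + ε * m) + 0 ∧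
      (a (m + 1) - 2 * a (m + 2) + a (m + 3)) * (x + ε * m) +
        (ε * (a (m + 1) - 4 * a (m + 2) + 3 * a (m + 3)) +
          (b (m + 1) - 2 * b (m + 2) + b (m + 3))) = 0 * (x + ε * m) + 0 := by
    rintro ε x ⟨c, d, H⟩
    have h0 := H 0 (by norm_num) (by norm_num)
    have h1 := H 1 (by norm_num) (by norm_num)
    have h2 := H 2 (by norm_num) (by norm_num)
    have h3 := H 3 (by norm_num) (by norm_num)
    rw [add_zero] at h0
    push_cast at h0 h1 h2 h3
    exact ⟨by linear_combination h0 - 2 * h1 + h2, by linear_combination h1 - 2 * h2 + h3⟩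
  obtain ⟨e1, e2⟩ := struct_two (fun e => h (add_right_cancel e)) (key hx).1 (key hy).1
  obtain ⟨e3, e4⟩ := struct_two (fun e => h (add_right_cancel e)) (key hx).2 (key hy).2
  obtain ⟨-, e5⟩ := struct_two (fun e => h' (add_right_cancel e)) (key hx').1 (key hy').1
  push_cast at e2 e4 e5
  have e6 : (4 : Dg) * (a (m + 2) - a (m + 1)) = 0 := by linear_combination e2 - e5
  have e7 : a (m + 2) = a (m + 1) :=
    sub_eq_zero.1 ((mul_eq_zero.1 e6).resolve_left (by decide))
  refine ⟨by linear_combination e7 - e1, by linear_combination 2 * e7 - e1,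
    by linear_combination e3 + 3 * e7 - e1, by linear_combination e2 - 2 * e7, ?_⟩
  linear_combination e4 + 2 * e2 - 3 * e3 - 6 * e7

theorem base {F : Fin 39 → ℤ → Dg} (hR : ∀ i j, Rule1 (line F i j)) :
    ∃ (A B C : Dg) (m₀ : ℤ), ¬ (A = 0 ∧ B = 0 ∧ C = 0) ∧ RowOK F A B C m₀ ∧ RowOK F A B C (m₀ + 1) ∧
      RowOK F A B C (m₀ + 2) ∧ RowOK F A B C (m₀ + 3) := by
  have hrow : ∀ m : ℤ, ∃ a b : Dg, ¬ (a = 0 ∧ b = 0) ∧ Aff a b fun n => F n m := fun m => by
    obtain ⟨a, b, h1, h2⟩ := hR m 0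
    refine ⟨a, b, h1, fun n hn => ?_⟩
    simpa [line] using h2 n hn
  choose a b hab hrow using hrow
  have main : ∀ m : ℤ, (∃ x y : Dg, x ≠ y ∧ StructSec a b 1 m x ∧ StructSec a b 1 m y) →
      (∃ x y : Dg, x ≠ y ∧ StructSec a b (-1) m x ∧ StructSec a b (-1) m y) →
      ∃ (A B C : Dg) (m₀ : ℤ), ¬ (A = 0 ∧ B = 0 ∧ C = 0) ∧ RowOK F A B C m₀ ∧
        RowOK F A B C (m₀ + 1) ∧ RowOK F A B C (m₀ + 2) ∧ RowOK F A B C (m₀ + 3) := by
    rintro m ⟨x, y, h, hx, hy⟩ ⟨x', y', h', hx', hy'⟩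
    obtain ⟨e1, e2, e3, e4, e5⟩ := struct_alg h h' hx hy hx' hy'
    have key : ∀ k : ℤ, a k = a m → b k = (b (m + 1) - b m) * k + (b m - (b (m + 1) - b m) * m) →
        RowOK F (a m) (b (m + 1) - b m) (b m - (b (m + 1) - b m) * m) k := fun k h1 h2 => by
      rw [RowOK, ← h1, ← h2]; exact hrow k
    refine ⟨a m, b (m + 1) - b m, b m - (b (m + 1) - b m) * m, m, fun h => hab m ⟨h.1, ?_⟩,
      key _ rfl (by ring), key _ e1 (by push_cast; ring),
      key _ e2 (by rw [e4]; push_cast; ring), key _ e3 (by rw [e5]; push_cast; ring)⟩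
    have := h.2.2
    rwa [h.2.1, zero_mul, sub_zero] at this
  have d : ∀ s t : ℤ, (s = 0 ∨ s = 4 ∨ s = 8) → (t = 0 ∨ t = 4 ∨ t = 8) → s ≠ t → ∀ ε c : ℤ,
      (ε = 1 ∧ c = 0) ∨ (ε = -1 ∧ c = 11) →
      (∃ x y : Dg, x ≠ y ∧ StructSec a b ε s x ∧ StructSec a b ε s y) ∨
        ∃ x y : Dg, x ≠ y ∧ StructSec a b ε t x ∧ StructSec a b ε t y := by
    intro s t hs ht hst ε c hε
    obtain ⟨β, h⟩ := struct_dir hR hab hrow hε (fun β => bif β then t else s)
      (fun β => by cases β <;> assumption) hst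
    cases β
    · exact Or.inl h
    · exact Or.inr h
  have d1 := d 0 4 (by simp) (by simp) (by simp) 1 0 (by simp)
  have d2 := d 0 8 (by simp) (by simp) (by simp) 1 0 (by simp)
  have d3 := d 4 8 (by simp) (by simp) (by simp) 1 0 (by simp)
  have d4 := d 0 4 (by simp) (by simp) (by simp) (-1) 11 (by simp)
  have d5 := d 0 8 (by simp) (by simp) (by simp) (-1) 11 (by simp)
  have d6 := d 4 8 (by simp) (by simp) (by simp) (-1) 11 (by simp)
  rcases d1 with p | p
  · rcases d4 with q | q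
    · exact main _ p q
    · rcases d3 with r | r
      · exact main _ r q
      · rcases d5 with t | t
        exacts [main _ p t, main _ r t]
  · rcases d4 with q | q
    · rcases d2 with r | r
      · exact main _ r q
      · rcases d6 with t | t
        exacts [main _ p t, main _ r t]
    · exact main _ p q

theorem struct_cell {F : Fin 39 → ℤ → Dg} (hR : ∀ i j, Rule1 (line F i j)) {A B C : Dg}
    {m j x : ℤ} {n : Fin 39} (h0 : 0 ≤ x) (h1 : x + 3 < 39)
    (h : ∀ r : ℤ, 0 ≤ r → r < 4 → RowOK F A B C (j * (x + r) + (m - j * (n : ℕ))))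
    (hne : A * ((n : ℕ) : Dg) + (B * (m : Dg) + C) ≠ 0) :
    F n m = A * ((n : ℕ) : Dg) + (B * (m : Dg) + C) := by
  obtain ⟨a, b, hab, ha⟩ := hR (m - j * (n : ℕ)) j
  have e : (A + B * j) * ((n : ℕ) : Dg) + (B * (m - j * ((n : ℕ) : Dg)) + C) =
      A * ((n : ℕ) : Dg) + (B * (m : Dg) + C) := by ring
  have key : ∀ r : ℤ, 0 ≤ r → r < 4 → a * ((x : Dg) + r) + b ≠ 0 →
      (A + B * j) * ((x : Dg) + r) + (B * (m - j * ((n : ℕ) : Dg)) + C) ≠ 0 →
      a * ((x : Dg) + r) + b = (A + B * j) * ((x : Dg) + r) + (B * (m - j * ((n : ℕ) : Dg)) + C) := by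
    intro r r0 r4 n1 n2
    have e1 := struct_line ha (k := x + r) (by omega) (by omega) (by push_cast; exact n1)
    have e2 := struct_aff (h r r0 r4) (k := x + r) (by omega) (by omega) (by
      push_cast
      exact fun e => n2 (by linear_combination e))
    have e3 := e1.symm.trans e2
    push_cast at e3
    linear_combination e3
  obtain ⟨rfl, rfl⟩ := aff_eq (x := (x : Dg)) (a' := A + B * j)
    (b' := B * (m - j * ((n : ℕ) : Dg)) + C) hab
    (fun hz => hne (by rw [← e, hz.1, hz.2]; simp)) (by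
      rintro t (rfl | rfl | rfl | rfl)
      · exact_mod_cast key 0 (by norm_num) (by norm_num)
      · exact_mod_cast key 1 (by norm_num) (by norm_num)
      · exact_mod_cast key 2 (by norm_num) (by norm_num)
      · exact_mod_cast key 3 (by norm_num) (by norm_num))
  have := ha n (by rwa [e])
  rw [e, line] at this
  rw [← this]
  congr 1
  ring

theorem struct_ext {F : Fin 39 → ℤ → Dg} (hR : ∀ i j, Rule1 (line F i j)) {A B C : Dg}
    {m s : ℤ} (h : ∀ r : ℤ, 1 ≤ r → r ≤ 4 → RowOK F A B C (m + s * r)) : RowOK F A B C m := by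
  intro n hne
  have hn := n.2
  by_cases h4 : 4 ≤ (n : ℕ)
  · refine struct_cell hR (j := -s) (x := (n : ℕ) - 4) (by omega) (by omega) (fun r r0 r4 => ?_) hne
    have := h (4 - r) (by omega) (by omega)
    convert this using 1
    ring
  · refine struct_cell hR (j := s) (x := (n : ℕ) + 1) (by omega) (by omega) (fun r r0 r4 => ?_) hne
    have := h (r + 1) (by omega) (by omega)
    convert this using 1
    ring

theorem struct {F : Fin 39 → ℤ → Dg} (hR : ∀ i j, Rule1 (line F i j)) :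
    ∃ A B C : Dg, ¬ (A = 0 ∧ B = 0 ∧ C = 0) ∧ ∀ m, RowOK F A B C m := by
  obtain ⟨A, B, C, m₀, h0, h⟩ := base hR
  refine ⟨A, B, C, h0, fun m => ?_⟩
  have key : ∀ m : ℤ, ∀ r : ℤ, 0 ≤ r → r < 4 → RowOK F A B C (m + r) := by
    intro m
    induction m using Int.inductionOn' (b := m₀) with
    | zero =>
      intro r r0 r4
      have : r = 0 ∨ r = 1 ∨ r = 2 ∨ r = 3 := by omega
      rcases this with rfl | rfl | rfl | rfl
      · rw [add_zero]; exact h.1
      · exact h.2.1
      · exact h.2.2.1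
      · exact h.2.2.2
    | succ k _ ih =>
      intro r r0 r4
      by_cases h3 : r = 3
      · refine struct_ext hR (s := -1) fun t t1 t4 => ?_
        have := ih (4 - t) (by omega) (by omega)
        convert this using 1
        omega
      · have := ih (r + 1) (by omega) (by omega)
        convert this using 1
        omega
    | pred k _ ih =>
      intro r r0 r4
      by_cases h3 : r = 0
      · refine struct_ext hR (s := 1) fun t t1 t4 => ?_
        have := ih (t - 1) (by omega) (by omega)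
        convert this using 1
        omega
      · have := ih (r - 1) (by omega) (by omega)
        convert this using 1
        omega
  simpa using key m 0 le_rfl (by norm_num)

end Crest.Agent.R46
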