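import Crest.Agent.R46.Defs

/-!
# Row 46: what the two kinds of tiles say  (subtask Tiles)

Write `B u = α (g + s u) + e u`.
`cyc_sound`: `s 0 = ∑ σ`.  Put `u' = B 0 - α g`; its coordinate `v t` is
`α (g + ∑ σ) (v t) - δ - α g (v t)`.  If all these are nonzero then `s u' = 0`, `e u' = u'`,
`B u' = B 0`, so `u' = 0`, contradiction.
`cyc_compl`: by `hind` (induction over the finite sum) coordinate `v t` of `B u` is
`α (g + if u (v (nx t)) = 0 then σ t else 0) (v t) + u (v t) - (if .. then δ else 0)`; for the `t₀` of `hex`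
this is `α g (v t₀) + u (v t₀)`.  If `B u = B u'` then `u (v t₀) = u' (v t₀)`, and
`u (v (nx t)) = u' (v (nx t)) → u (v t) = u' (v t)`; `nx_reach` gives all `t`; then `s u = s u'` and the other
coordinates agree.  Injective implies bijective (`Finite.injective_iff_bijective`).
`tt_iff`: triangular: a collision in the two coordinates extends to a full collision by adjusting the
other coordinates of `u'`; conversely if the two coordinates of `u, u'` agree then `s u = s u'`.
`tt_not_all`: the first coordinate of the (bijective) map `tmap` depends only on `x.2`, say `φ x.2`; the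
fibre over `y` has `n c` elements and also `n v * #{r | φ r = y}` elements.
`tt_active`: the `n c + 1` points `(0, r)` and `(1, 0)` have the same first coordinate.
-/

set_option autoImplicit false

namespace Crest.Agent.R46

open Crest.CombinatoricsR.Tiling

theorem tiles_rot (N : ℕ) (m : ℕ) (i : Fin (N + 1)) :
    (finRotate (N + 1))^[m] i = i + Fin.ofNat (N + 1) m := by
  induction m with
  | zero => simp
  | succ m ih =>
    rw [Function.iterate_succ_apply', ih, finRotate_apply, add_assoc]
    congr 1
    apply Fin.ext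
    simp [Fin.val_add]

theorem tiles_rot_reach {N : ℕ} (i j : Fin N) : ∃ m : ℕ, (finRotate N)^[m] i = j := by
  obtain ⟨N, rfl⟩ : ∃ M, N = M + 1 := ⟨N - 1, by have := i.pos; omega⟩
  refine ⟨(j - i).val, ?_⟩
  rw [tiles_rot]
  simp

theorem nx_reach {ι : Type} [Fintype ι] (t t₀ : ι) : ∃ m : ℕ, nx^[m] t = t₀ := by
  obtain ⟨m, hm⟩ := tiles_rot_reach (Fintype.equivFin ι t) (Fintype.equivFin ι t₀)
  refine ⟨m, ?_⟩
  have h : ∀ (k : ℕ) (s : ι), nx^[k] s =
      (Fintype.equivFin ι).symm ((finRotate _)^[k] (Fintype.equivFin ι s)) := fun k s => by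
    induction k with
    | zero => simp
    | succ k ih => rw [Function.iterate_succ_apply', Function.iterate_succ_apply', ih, nx,
        Equiv.apply_symm_apply]
  rw [h, hm, Equiv.symm_apply_apply]

variable {K : Type} [Finite K] {n : K → ℕ} [∀ κ, NeZero (n κ)] {α : Z3 → HH n}

open Classical in
omit [Finite K] [∀ κ, NeZero (n κ)] in
theorem tiles_cyc_e {ι : Type} [Fintype ι] {v : ι → K} (hv : Function.Injective v) (σ : ι → Z3)
    (δ : ℤ) (u : HH n) (t : ι) :
    (cyc n v σ δ).e u (v t) = u (v t) - if u (v (nx t)) = 0 then (δ : ZMod (n (v t))) else 0 := by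
  simp only [cyc, hv.eq_iff]
  rw [Finset.sum_eq_single t (fun b _ hb => by simp [hb]) (by simp)]
  simp

theorem cyc_sound {ι : Type} [Fintype ι] [Nonempty ι] {v : ι → K} (hv : Function.Injective v)
    {σ : ι → Z3} {δ : ℤ} (h : (cyc n v σ δ).Ok α) (g : Z3) :
    ∃ t, α (g + ∑ t', σ t') (v t) = α g (v t) + δ := by
  classical
  by_contra hn
  push Not at hn
  have s0 : (cyc n v σ δ).s 0 = ∑ t', σ t' := by simp [cyc]
  set u' : HH n := α (g + (cyc n v σ δ).s 0) + (cyc n v σ δ).e 0 - α g with hu'
  have h1 : ∀ t, u' (v t) ≠ 0 := fun t h0 => by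
    apply hn t
    rw [hu', Pi.sub_apply, Pi.add_apply, tiles_cyc_e hv, s0] at h0
    simp only [Pi.zero_apply, if_true] at h0
    linear_combination h0
  have h2 : (cyc n v σ δ).s u' = 0 := by simp [cyc, h1]
  have h3 : (cyc n v σ δ).e u' = u' := by
    funext κ
    simp [cyc, h1]
  have h4 : u' = 0 := (h g).1 (by
    show α (g + (cyc n v σ δ).s u') + (cyc n v σ δ).e u' = _
    rw [h2, h3, add_zero, hu', add_sub_cancel])
  obtain ⟨t⟩ := ‹Nonempty ι›
  exact h1 t (by rw [h4]; rfl)

theorem cyc_compl {ι : Type} [Fintype ι] {v : ι → K} (hv : Function.Injective v) {σ : ι → Z3}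
    {δ : ℤ} (hind : ∀ g t t', t' ≠ t → α (g + σ t') (v t) = α g (v t))
    (hex : ∀ g, ∃ t, α (g + σ t) (v t) = α g (v t) + δ) : (cyc n v σ δ).Ok α := by
  classical
  intro g
  refine Finite.injective_iff_bijective.1 fun u u' h => ?_
  have hA : ∀ (c : ι → Prop) [DecidablePred c] (t : ι) (S : Finset ι), t ∉ S → ∀ g,
      α (g + ∑ t' ∈ S, if c t' then σ t' else 0) (v t) = α g (v t) := by
    intro c _ t S
    induction S using Finset.induction_on with
    | empty => intro _ g; simp
    | insert a S ha ih =>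
      intro ht g
      rw [Finset.mem_insert, not_or] at ht
      rw [Finset.sum_insert ha, ← add_assoc, ih ht.2]
      split_ifs
      · exact hind g t a (Ne.symm ht.1)
      · rw [add_zero]
  have hB : ∀ (u : HH n) (t : ι), (α (g + (cyc n v σ δ).s u) + (cyc n v σ δ).e u) (v t) =
      α (g + if u (v (nx t)) = 0 then σ t else 0) (v t) +
        (u (v t) - if u (v (nx t)) = 0 then (δ : ZMod (n (v t))) else 0) := fun u t => by
    rw [Pi.add_apply, tiles_cyc_e hv]
    congr 1
    have e : (cyc n v σ δ).s u = (if u (v (nx t)) = 0 then σ t else 0) +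
        ∑ t' ∈ Finset.univ.erase t, if u (v (nx t')) = 0 then σ t' else 0 :=
      (Finset.add_sum_erase _ _ (Finset.mem_univ t)).symm
    rw [e, ← add_assoc]
    exact hA (fun t' => u (v (nx t')) = 0) t _ (Finset.notMem_erase t _) _
  have hB' : ∀ t, α (g + if u (v (nx t)) = 0 then σ t else 0) (v t) +
      (u (v t) - if u (v (nx t)) = 0 then (δ : ZMod (n (v t))) else 0) =
      α (g + if u' (v (nx t)) = 0 then σ t else 0) (v t) +
      (u' (v t) - if u' (v (nx t)) = 0 then (δ : ZMod (n (v t))) else 0) := fun t => by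
    rw [← hB, ← hB]
    exact congrFun h (v t)
  obtain ⟨t₀, ht₀⟩ := hex g
  have h0 : u (v t₀) = u' (v t₀) := by
    have := hB' t₀
    split_ifs at this <;> simp only [ht₀, add_zero] at this <;> linear_combination this
  have h1 : ∀ (m : ℕ) (t : ι), nx^[m] t = t₀ → u (v t) = u' (v t) := fun m => by
    induction m with
    | zero => rintro t rfl; exact h0
    | succ m ih =>
      intro t ht
      have h2 := ih (nx t) ht
      have h3 := hB' t
      rw [h2] at h3
      linear_combination h3
  have h2 : ∀ t, u (v t) = u' (v t) := fun t => by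
    obtain ⟨m, hm⟩ := nx_reach t t₀
    exact h1 m t hm
  funext κ
  have h3 := congrFun h κ
  simp only [cyc, Pi.add_apply, h2] at h3
  linear_combination h3

theorem inv_iff {v : K} {σ : Z3} : (inv n v σ).Ok α ↔ ∀ g, α (g + σ) v = α g v := by
  have hv : Function.Injective (fun _ : Unit => v) := fun _ _ _ => rfl
  refine ⟨fun h g => ?_, fun h => cyc_compl hv (fun _ _ _ h' => absurd rfl h') fun g => ⟨(), ?_⟩⟩
  · obtain ⟨_, ht⟩ := cyc_sound hv h g
    simpa using ht
  · simpa using h g

/-- the two relevant coordinates of a `tt` tile -/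
def tmap (α : Z3 → HH n) (v c : K) (σ ρ g : Z3) (x : ZMod (n v) × ZMod (n c)) :
    ZMod (n v) × ZMod (n c) :=
  (α (g + ((x.1.val : ℤ) • σ + (x.2.val : ℤ) • ρ)) v - x.1,
    α (g + ((x.1.val : ℤ) • σ + (x.2.val : ℤ) • ρ)) c)

theorem tt_iff {v c : K} (hvc : v ≠ c) {σ ρ : Z3} :
    (tt n v c σ ρ).Ok α ↔ ∀ g, Function.Injective (tmap α v c σ ρ g) := by
  classical
  refine ⟨fun h g x x' hx => ?_, fun h g => Finite.injective_iff_bijective.1 fun u u' hu => ?_⟩
  · let up : HH n → ZMod (n v) × ZMod (n c) → HH n := fun w y =>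
      Function.update (Function.update w v y.1) c y.2
    have e1 : ∀ w y, up w y v = y.1 := fun w y => by simp [up, Function.update_of_ne hvc]
    have e2 : ∀ w y, up w y c = y.2 := fun w y => by simp [up]
    have e3 : ∀ w y κ, κ ≠ v → κ ≠ c → up w y κ = w κ := fun w y κ h1 h2 => by
      simp [up, Function.update_of_ne h1, Function.update_of_ne h2]
    have key := (h g).1 (a₁ := up 0 x) (a₂ := up
      (α (g + ((x.1.val : ℤ) • σ + (x.2.val : ℤ) • ρ)) -
        α (g + ((x'.1.val : ℤ) • σ + (x'.2.val : ℤ) • ρ))) x') (by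
      funext κ
      simp only [tt, Pi.add_apply, e1, e2]
      by_cases h1 : κ = v
      · subst h1
        have := congrArg Prod.fst hx
        simp only [tmap] at this
        simp only [if_true, e1]
        linear_combination this
      · by_cases h2 : κ = c
        · subst h2
          have := congrArg Prod.snd hx
          simp only [tmap] at this
          simp only [h1, if_true, if_false, this]
        · simp only [h1, h2, if_false, e3 _ _ _ h1 h2, Pi.zero_apply, Pi.sub_apply]
          ring)
    have k1 := congrFun key v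
    have k2 := congrFun key c
    rw [e1, e1] at k1
    rw [e2, e2] at k2
    exact Prod.ext k1 k2
  · have k1 := congrFun hu v
    have k2 := congrFun hu c
    simp only [tt, Pi.add_apply, if_true, hvc.symm, if_false, add_zero] at k1 k2
    have k3 : (u v, u c) = (u' v, u' c) := h g (Prod.ext (by
      simp only [tmap]; linear_combination k1) k2)
    obtain ⟨k4, k5⟩ := Prod.mk.inj k3
    funext κ
    by_cases h1 : κ = v
    · rw [h1, k4]
    · by_cases h2 : κ = c
      · rw [h2, k5]
      · have k6 := congrFun hu κ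
        simp only [tt, Pi.add_apply, h1, h2, if_false, k4, k5] at k6
        exact add_left_cancel k6

/-- not all rows have slope one -/
theorem tt_not_all {v c : K} (hvc : v ≠ c) {σ ρ : Z3} (h : (tt n v c σ ρ).Ok α)
    (hd : ¬ n v ∣ n c) (g : Z3) :
    ¬ ∀ r t : ℤ, α (g + r • ρ + (t + 1) • σ) v = α (g + r • ρ + t • σ) v + 1 := by
  classical
  intro hall
  apply hd
  have hb := Finite.injective_iff_bijective.1 ((tt_iff hvc).1 h g)
  have h1 : ∀ (r : ℤ) (t : ℕ), α (g + r • ρ + (t : ℤ) • σ) v = α (g + r • ρ) v + t := fun r t => by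
    induction t with
    | zero => simp
    | succ t ih => push_cast; rw [hall, ih]; ring
  have h2 : ∀ x, (tmap α v c σ ρ g x).1 = α (g + (x.2.val : ℤ) • ρ) v := fun x => by
    simp only [tmap]
    rw [add_comm (_ • σ), ← add_assoc, h1, ZMod.natCast_zmod_val]
    ring
  have h3 : (Finset.univ.filter fun x => (tmap α v c σ ρ g x).1 = 0).card =
      (Finset.univ.filter fun z : ZMod (n v) × ZMod (n c) => z.1 = 0).card :=
    Finset.card_bijective _ hb fun x => by simp
  have h4 : (Finset.univ.filter fun z : ZMod (n v) × ZMod (n c) => z.1 = 0) =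
      {0} ×ˢ Finset.univ := by
    ext z; simp only [Finset.mem_filter, Finset.mem_univ, true_and, Finset.mem_product,
      Finset.mem_singleton, and_true]
  have h5 : (Finset.univ.filter fun x => (tmap α v c σ ρ g x).1 = 0) =
      Finset.univ ×ˢ Finset.univ.filter fun r : ZMod (n c) => α (g + (r.val : ℤ) • ρ) v = 0 := by
    ext z; simp [h2]
  rw [h4, h5, Finset.card_product, Finset.card_product, Finset.card_singleton, one_mul,
    Finset.card_univ, Finset.card_univ, ZMod.card, ZMod.card] at h3
  exact ⟨_, h3.symm⟩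

/-- a row of slope one forces the coordinate to vary with the row -/
theorem tt_active {v c : K} (hvc : v ≠ c) {σ ρ : Z3} (h : (tt n v c σ ρ).Ok α) (h2 : 2 ≤ n v)
    (g : Z3) (hs : α (g + σ) v = α g v + 1) : ¬ ∀ r : ℤ, α (g + r • ρ) v = α g v := by
  intro hall
  have hi := (tt_iff hvc).1 h g
  have : Fact (1 < n v) := ⟨h2⟩
  have h1 : ∀ r, (tmap α v c σ ρ g (0, r)).1 = α g v := fun r => by
    simp only [tmap, ZMod.val_zero, Nat.cast_zero, zero_smul, zero_add, hall, sub_zero]
  have h3 : (tmap α v c σ ρ g (1, 0)).1 = α g v := by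
    simp [tmap, ZMod.val_one, hs]
  have h4 : Function.Injective fun r => (tmap α v c σ ρ g (0, r)).2 := fun r r' hr =>
    (Prod.mk.inj (hi (Prod.ext ((h1 r).trans (h1 r').symm) hr))).2
  obtain ⟨r, hr⟩ := Finite.injective_iff_surjective.1 h4 (tmap α v c σ ρ g (1, 0)).2
  exact zero_ne_one (Prod.mk.inj (hi (Prod.ext ((h1 r).trans h3.symm) hr))).1

end Crest.Agent.R46
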